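import Vale.Agent.P072.Lyap

/-! A priori bounds: trajectories starting in a box stay in a box. -/

namespace Vale.Agent.P072

open Finset Real Set Filter Topology

variable {D : Type*} [Fintype D] [DecidableEq D]

/-- The box `[m, M]^D`. -/
def Box (m M : ℝ) : Set (D → ℝ) := {x | ∀ j, m ≤ x j ∧ x j ≤ M}

/-- Dissipation property of the right hand side. -/
def Diss (V : Finset (D → ℝ)) (δ : ℝ) (F : (D → ℝ) → Set (D → ℝ)) : Prop :=
  ∀ x : D → ℝ, (∀ i, 0 < x i) → ∀ z : D → ℝ,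
    (∀ v ∈ V, 0 < z ⬝ᵥ v → δ ≤ ∑ j, log (x j) * v j) → ∀ g ∈ F x, z ⬝ᵥ g ≤ 0

theorem bootstrap {E : Type*} [TopologicalSpace E] {x : ℝ → E} {a b : ℝ}
    (hx : ContinuousOn x (Icc a b)) {K O : Set E} (hK : IsClosed K) (hO : IsOpen O) (hKO : K ⊆ O)
    (ha : x a ∈ K) (h : ∀ t ∈ Icc a b, (∀ s ∈ Icc a t, x s ∈ O) → x t ∈ K) :
    ∀ t ∈ Icc a b, x t ∈ K := by
  have hcl : IsClosed (x ⁻¹' K ∩ Icc a b) := by
    rw [Set.inter_comm]
    exact hx.preimage_isClosed_of_isClosed isClosed_Icc hK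
  refine hcl.Icc_subset_of_forall_mem_nhdsGT_of_Icc_subset ha ?_
  intro t ht hsub
  have htK : x t ∈ K := hsub ⟨ht.1, le_rfl⟩
  have hev : x ⁻¹' O ∈ 𝓝[Icc a b] t :=
    hx t ⟨ht.1, ht.2.le⟩ (hO.mem_nhds (hKO htK))
  obtain ⟨ε, hε, hball⟩ := Metric.mem_nhdsWithin_iff.mp hev
  have hmem : Ioo t (min (t + ε) b) ∈ 𝓝[>] t := Ioo_mem_nhdsGT (lt_min (by linarith) ht.2)
  filter_upwards [hmem] with u hu
  have hu1 : u < t + ε := lt_of_lt_of_le hu.2 (min_le_left _ _)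
  have hu2 : u < b := lt_of_lt_of_le hu.2 (min_le_right _ _)
  apply h u ⟨ht.1.trans hu.1.le, hu2.le⟩
  intro s hs
  rcases le_total s t with h1 | h1
  · exact hKO (hsub ⟨hs.1, h1⟩)
  · apply hball
    refine ⟨?_, hs.1, hs.2.trans hu2.le⟩
    rw [Metric.mem_ball, Real.dist_eq, abs_lt]
    constructor <;> linarith [hs.2]

theorem exists_last_cross {f : ℝ → ℝ} {a t r : ℝ} (hat : a ≤ t) (hf : ContinuousOn f (Icc a t))
    (ha : r ≤ f a) (ht : f t ≤ r) :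
    ∃ s ∈ Icc a t, f s = r ∧ ∀ u ∈ Icc s t, f u ≤ r := by
  have hcl : IsClosed (Icc a t ∩ f ⁻¹' {r}) :=
    hf.preimage_isClosed_of_isClosed isClosed_Icc isClosed_singleton
  have hcp : IsCompact (Icc a t ∩ f ⁻¹' {r}) :=
    isCompact_Icc.of_isClosed_subset hcl Set.inter_subset_left
  obtain ⟨s0, hs0, hs0'⟩ := intermediate_value_Icc' hat hf (show r ∈ Icc (f t) (f a) from ⟨ht, ha⟩)
  obtain ⟨s, hs, hmax⟩ := hcp.exists_isGreatest ⟨s0, hs0, hs0'⟩
  refine ⟨s, hs.1, hs.2, ?_⟩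
  intro u hu
  by_contra hcon
  push Not at hcon
  obtain ⟨u', hu', hu''⟩ := intermediate_value_Icc' hu.2
    (hf.mono (Icc_subset_Icc (hs.1.1.trans hu.1) le_rfl))
    (show r ∈ Icc (f t) (f u) from ⟨ht, hcon.le⟩)
  have h1 : u' ≤ s := hmax ⟨⟨hs.1.1.trans (hu.1.trans hu'.1), hu'.2⟩, hu''⟩
  have h2 : u = s := le_antisymm (hu'.1.trans h1) hu.1
  have h3 : f s = r := hs.2
  rw [h2, h3] at hcon
  exact lt_irrefl _ hcon

theorem upper_bound {V : Finset (D → ℝ)} {δ : ℝ} {F : (D → ℝ) → Set (D → ℝ)} (hF : Diss V δ F)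
    (M0 : ℝ) : ∃ M, ∀ (x : ℝ → D → ℝ) (a b : ℝ), a ≤ b → Traj F x a b →
      (∀ t ∈ Icc a b, ∀ j, 0 < x t j) → (∀ j, x a j ≤ M0) → ∀ j, x b j ≤ M := by
  rcases isEmpty_or_nonempty D with hD | hD
  · exact ⟨0, fun _ _ _ _ _ _ _ j => (IsEmpty.false j).elim⟩
  obtain ⟨ρ, 𝒞, h⟩ := exists_lyap (Finset.univ : Finset D) V δ
  set N : ℝ := (((Finset.univ : Finset D).card : ℕ) : ℝ) with hN
  refine ⟨N * M0 * (N * M0 + ρ) + N * exp (ρ + 1), ?_⟩
  intro x a b hab hx hpos h0 j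
  have hmono := phi_mono h Finset.univ_nonempty hab hx hpos (γ := 0)
    (fun t ht z _ hz g hg => hF (x t) (hpos t ht) z hz.2 g hg)
  have hpa := hpos a ⟨le_rfl, hab⟩
  have hpb := hpos b ⟨hab, le_rfl⟩
  have h1 := h.phi_le Finset.univ_nonempty hpa
  have h2 := h.flat_le Finset.univ_nonempty hpb (ρ + 1)
  have h3 : x b j ≤ ∑ j, x b j :=
    Finset.single_le_sum (f := fun j => x b j) (fun j _ => (hpb j).le) (Finset.mem_univ j)
  set s := ∑ j, x a j with hs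
  have hspos : 0 < s := Finset.sum_pos (fun j _ => hpa j) Finset.univ_nonempty
  have h4 : s ≤ N * M0 := by
    have := Finset.sum_le_card_nsmul Finset.univ (fun j => x a j) M0 (fun j _ => h0 j)
    rwa [nsmul_eq_mul] at this
  have h5 : log s ≤ s - 1 := log_le_sub_one_of_pos hspos
  have h6 := h.rho
  have h7 : s * (log s + ρ - 1) ≤ s * (s + ρ) := mul_le_mul_of_nonneg_left (by linarith) hspos.le
  have h8 : s * (s + ρ) ≤ N * M0 * (N * M0 + ρ) :=
    mul_le_mul h4 (by linarith) (by linarith) (by linarith)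
  have h9 : (ρ + 1 - ρ) * ∑ j, x b j = ∑ j, x b j := by ring
  linarith

theorem abs_log_le {m M y : ℝ} (hm : 0 < m) (h1 : m ≤ y) (h2 : y ≤ M) :
    |log y| ≤ |log m| + |log M| := by
  have h3 : log m ≤ log y := log_le_log hm h1
  have h4 : log y ≤ log M := log_le_log (by linarith) h2
  rw [abs_le]
  constructor
  · linarith [neg_abs_le (log m), abs_nonneg (log M)]
  · linarith [le_abs_self (log M), abs_nonneg (log m)]

theorem lower_step {V : Finset (D → ℝ)} {δ : ℝ} {F : (D → ℝ) → Set (D → ℝ)} (hF : Diss V δ F)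
    {m0 M m' : ℝ} (hm0 : 0 < m0) (hm' : 0 < m') (J : Finset D) (hJ : J.Nonempty) :
    ∃ m, 0 < m ∧ ∀ (x : ℝ → D → ℝ) (a b : ℝ), a ≤ b → Traj F x a b →
      (∀ t ∈ Icc a b, ∀ j, 0 < x t j) → (∀ j, m0 ≤ x a j) → (∀ t ∈ Icc a b, ∀ j, x t j ≤ M) →
      (∀ t ∈ Icc a b, ∀ i, i ∉ J → m' ≤ x t i + ∑ j ∈ J, x t j) → m ≤ ∑ j ∈ J, x b j := by
  set B : ℝ := |log (m' / 2)| + |log M| with hB
  have hB0 : 0 ≤ B := by positivity
  obtain ⟨ρ, 𝒞, h⟩ := exists_lyap J V (δ + B * size V)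
  have hρ := h.rho
  set r : ℝ := min (exp (-ρ)) (min (m' / 2) m0) with hr
  have hr0 : 0 < r := lt_min (exp_pos _) (lt_min (by linarith) hm0)
  have hr1 : r ≤ exp (-ρ) := min_le_left _ _
  have hr2 : r ≤ m' / 2 := (min_le_right _ _).trans (min_le_left _ _)
  have hr3 : r ≤ m0 := (min_le_right _ _).trans (min_le_right _ _)
  have hN : (0 : ℝ) < J.card := by exact_mod_cast Finset.card_pos.mpr hJ
  set τ : ℝ := log (r / (2 * J.card)) with hτ
  have hτ1 : J.card * exp τ = r / 2 := by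
    rw [hτ, exp_log (by positivity)]; field_simp
  have hτ2 : 0 < |τ| + ρ := by positivity
  refine ⟨min r (r / 2 / (|τ| + ρ)), lt_min hr0 (by positivity), ?_⟩
  intro x a b hab hx hpos h0 hM hlow
  rcases le_total r (∑ j ∈ J, x b j) with hc | hc
  · exact (min_le_left _ _).trans hc
  refine (min_le_right _ _).trans ?_
  have hcont : ContinuousOn (fun t => ∑ j ∈ J, x t j) (Icc a b) :=
    continuousOn_finsetSum _ fun j _ => (continuousOn_pi.mp hx.1) j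
  have hstart : r ≤ ∑ j ∈ J, x a j := by
    obtain ⟨i, hi⟩ := hJ
    have : x a i ≤ ∑ j ∈ J, x a j :=
      Finset.single_le_sum (f := fun j => x a j) (fun j _ => (hpos a ⟨le_rfl, hab⟩ j).le) hi
    linarith [h0 i]
  obtain ⟨s, hs, hs1, hs2⟩ := exists_last_cross hab hcont hstart hc
  have hsub : Icc s b ⊆ Icc a b := Icc_subset_Icc hs.1 le_rfl
  have hmono := phi_mono h hJ hs.2 (hx.mono hs.1 le_rfl) (fun t ht => hpos t (hsub ht)) (γ := 0)
    (fun t ht z _ hz g hg => by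
      refine hF (x t) (hpos t (hsub ht)) z (fun v hv hzv => ?_) g hg
      have h1 := hz.2 v hv hzv
      have h2 := abs_sum_le_size hv Jᶜ (fun j => log (x t j)) hB0 (fun j hj => by
        apply abs_log_le (by linarith) _ (hM t (hsub ht) j)
        have h3 := hlow t (hsub ht) j (Finset.mem_compl.mp hj)
        have h4 := hs2 t ht
        linarith)
      rw [← Finset.sum_add_sum_compl J]
      linarith [(abs_le.mp h2).1])
  have h1 := h.phi_le hJ (hpos s hs)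
  have h2 := h.flat_le hJ (hpos b ⟨hab, le_rfl⟩) τ
  rw [hs1] at h1
  have h3 : log r ≤ -ρ := by
    have := log_le_log hr0 hr1
    rwa [log_exp] at this
  have h4 : r * (log r + ρ - 1) ≤ r * (-1) := mul_le_mul_of_nonneg_left (by linarith) hr0.le
  have h5 : 0 ≤ ∑ j ∈ J, x b j := Finset.sum_nonneg fun j _ => (hpos b ⟨hab, le_rfl⟩ j).le
  have h6 : -(|τ| + ρ) * ∑ j ∈ J, x b j ≤ (τ - ρ) * ∑ j ∈ J, x b j :=
    mul_le_mul_of_nonneg_right (by linarith [neg_abs_le τ]) h5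
  rw [div_le_iff₀ hτ2]
  nlinarith

theorem lower_bound {V : Finset (D → ℝ)} {δ : ℝ} {F : (D → ℝ) → Set (D → ℝ)} (hF : Diss V δ F)
    {m0 M : ℝ} (hm0 : 0 < m0) (n : ℕ) : ∀ J : Finset D, Jᶜ.card = n → J.Nonempty →
    ∃ m, 0 < m ∧ ∀ (x : ℝ → D → ℝ) (a b : ℝ), a ≤ b → Traj F x a b →
      (∀ t ∈ Icc a b, ∀ j, 0 < x t j) → (∀ j, m0 ≤ x a j) → (∀ t ∈ Icc a b, ∀ j, x t j ≤ M) →
      m ≤ ∑ j ∈ J, x b j := by
  induction n with
  | zero =>
    intro J hJ hJn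
    obtain ⟨m, hm, h⟩ := lower_step hF (M := M) hm0 one_pos J hJn
    refine ⟨m, hm, fun x a b hab hx hpos h0 hM => h x a b hab hx hpos h0 hM ?_⟩
    intro t _ i hi
    have : i ∈ Jᶜ := Finset.mem_compl.mpr hi
    rw [Finset.card_eq_zero.mp hJ] at this
    simp at this
  | succ n ih =>
    intro J hJ hJn
    have hstep : ∀ i : D, ∃ m, 0 < m ∧ (i ∉ J → ∀ (x : ℝ → D → ℝ) (a b : ℝ), a ≤ b →
        Traj F x a b → (∀ t ∈ Icc a b, ∀ j, 0 < x t j) → (∀ j, m0 ≤ x a j) →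
        (∀ t ∈ Icc a b, ∀ j, x t j ≤ M) → m ≤ ∑ j ∈ insert i J, x b j) := by
      intro i
      by_cases hi : i ∈ J
      · exact ⟨1, one_pos, fun h => (h hi).elim⟩
      · obtain ⟨m, hm, h⟩ := ih (insert i J) (by
          rw [Finset.compl_insert, Finset.card_erase_of_mem (Finset.mem_compl.mpr hi), hJ]
          rfl) (Finset.insert_nonempty _ _)
        exact ⟨m, hm, fun _ => h⟩
    choose f hf hf' using hstep
    obtain ⟨m', hm', hle⟩ := exists_pos_le f hf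
    obtain ⟨m, hm, h⟩ := lower_step hF (M := M) hm0 hm' J hJn
    refine ⟨m, hm, fun x a b hab hx hpos h0 hM => h x a b hab hx hpos h0 hM ?_⟩
    intro t ht i hi
    have hsub : Icc a t ⊆ Icc a b := Icc_subset_Icc le_rfl ht.2
    have := hf' i hi x a t ht.1 (hx.mono le_rfl ht.2) (fun u hu => hpos u (hsub hu)) h0
      (fun u hu => hM u (hsub hu))
    rw [Finset.sum_insert hi] at this
    exact (hle i).trans this

theorem apriori_pos {V : Finset (D → ℝ)} {δ : ℝ} {F : (D → ℝ) → Set (D → ℝ)} (hF : Diss V δ F)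
    {m0 : ℝ} (hm0 : 0 < m0) (M0 : ℝ) :
    ∃ m M, 0 < m ∧ ∀ (x : ℝ → D → ℝ) (a b : ℝ), a ≤ b → Traj F x a b →
      (∀ t ∈ Icc a b, ∀ j, 0 < x t j) → x a ∈ Box m0 M0 → x b ∈ Box m M := by
  obtain ⟨M, hM⟩ := upper_bound hF M0
  have h1 : ∀ i : D, ∃ m, 0 < m ∧ ∀ (x : ℝ → D → ℝ) (a b : ℝ), a ≤ b → Traj F x a b →
      (∀ t ∈ Icc a b, ∀ j, 0 < x t j) → (∀ j, m0 ≤ x a j) → (∀ t ∈ Icc a b, ∀ j, x t j ≤ M) →
      m ≤ ∑ j ∈ {i}, x b j := fun i =>
    lower_bound hF hm0 _ {i} rfl (Finset.singleton_nonempty i)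
  choose f hf hf' using h1
  obtain ⟨m, hm, hle⟩ := exists_pos_le f hf
  refine ⟨m, M, hm, fun x a b hab hx hpos h0 j => ?_⟩
  have hup : ∀ t ∈ Icc a b, ∀ j, x t j ≤ M := fun t ht =>
    hM x a t ht.1 (hx.mono le_rfl ht.2) (fun u hu => hpos u (Icc_subset_Icc le_rfl ht.2 hu))
      (fun j => (h0 j).2)
  refine ⟨?_, hup b ⟨hab, le_rfl⟩ j⟩
  have := hf' j x a b hab hx hpos (fun j => (h0 j).1) hup
  rw [Finset.sum_singleton] at this
  exact (hle j).trans this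

omit [Fintype D] [DecidableEq D] in
theorem isClosed_box (m M : ℝ) : IsClosed (Box m M : Set (D → ℝ)) := by
  have : (Box m M : Set (D → ℝ)) = Set.pi Set.univ (fun _ => Icc m M) := by
    ext x; simp only [Box, Set.mem_ofPred_eq, Set.mem_pi, Set.mem_univ, Set.mem_Icc, true_imp_iff]
  rw [this]
  exact isClosed_set_pi fun _ _ => isClosed_Icc

omit [Fintype D] [DecidableEq D] in
theorem isCompact_box (m M : ℝ) : IsCompact (Box m M : Set (D → ℝ)) := by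
  have : (Box m M : Set (D → ℝ)) = Set.pi Set.univ (fun _ => Icc m M) := by
    ext x; simp only [Box, Set.mem_ofPred_eq, Set.mem_pi, Set.mem_univ, Set.mem_Icc, true_imp_iff]
  rw [this]
  exact isCompact_univ_pi fun _ => isCompact_Icc

/-- The open box. -/
def OBox (m M : ℝ) : Set (D → ℝ) := {x | ∀ j, m < x j ∧ x j < M}

omit [DecidableEq D] in
theorem isOpen_obox (m M : ℝ) : IsOpen (OBox m M : Set (D → ℝ)) := by
  have : (OBox m M : Set (D → ℝ)) = Set.pi Set.univ (fun _ => Ioo m M) := by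
    ext x; simp [OBox]
  rw [this]
  exact isOpen_set_pi Set.finite_univ fun _ _ => isOpen_Ioo

/-- A priori bound, in a form that applies to truncated equations and needs no positivity. -/
theorem apriori {V : Finset (D → ℝ)} {δ : ℝ} {F : (D → ℝ) → Set (D → ℝ)} (hF : Diss V δ F)
    {m0 : ℝ} (hm0 : 0 < m0) (M0 : ℝ) :
    ∃ m M, 0 < m ∧ ∀ (x : ℝ → D → ℝ) (a b : ℝ), ContinuousOn x (Icc a b) →
      (∀ t ∈ Icc a b, (∀ s ∈ Icc a t, x s ∈ OBox (m / 2) (M + 1)) → Traj F x a t) →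
      x a ∈ Box m0 M0 → ∀ t ∈ Icc a b, x t ∈ Box m M := by
  obtain ⟨m, M, hm, h⟩ := apriori_pos hF hm0 M0
  refine ⟨m, M, hm, fun x a b hcont hx h0 => ?_⟩
  rcases lt_or_ge b a with hab | hab
  · intro t ht
    exact absurd (ht.1.trans ht.2) (not_le.mpr hab)
  have key : ∀ t ∈ Icc a b, (∀ s ∈ Icc a t, x s ∈ OBox (m / 2) (M + 1)) → x t ∈ Box m M :=
    fun t ht hO => h x a t ht.1 (hx t ht hO) (fun s hs j => by linarith [(hO s hs j).1]) h0
  have hKO : (Box m M : Set (D → ℝ)) ⊆ OBox (m / 2) (M + 1) :=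
    fun y hy j => ⟨by linarith [(hy j).1], by linarith [(hy j).2]⟩
  refine bootstrap hcont (isClosed_box m M) (isOpen_obox (m / 2) (M + 1)) hKO ?_ key
  refine h (fun _ => x a) a a le_rfl ⟨continuousOn_const, ?_⟩
    (fun _ _ j => by linarith [(h0 j).1]) h0
  intro s t h1 h2 h3 z γ _
  have : t - s = 0 := by linarith
  simp [this]

end Vale.Agent.P072
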