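import Vale.Agent.P072.Network

/-! Compactness of the core of a positive class and abstract permanence. -/

namespace Vale.Agent.P072

open Finset Real Set

theorem span_functional_bound {ι D : Type*} [Fintype D] (R : Finset ι) (v : ι → D → ℝ) :
    ∃ C : ℝ, 0 ≤ C ∧ ∀ s ∈ Submodule.span ℝ (v '' (R : Set ι)), ∀ (X : D → ℝ) (K : ℝ), 0 ≤ K →
      (∀ r ∈ R, |X ⬝ᵥ v r| ≤ K) → |X ⬝ᵥ s| ≤ C * K * ‖s‖ := by
  let φ : (R → ℝ) →ₗ[ℝ] (D → ℝ) := Fintype.linearCombination ℝ (fun r : R => v r)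
  have hrange : LinearMap.range φ = Submodule.span ℝ (v '' (R : Set ι)) := by
    rw [Fintype.range_linearCombination]
    congr 1
    ext u
    simp
  obtain ⟨ψ, hψ⟩ := LinearMap.exists_rightInverse_of_surjective φ.rangeRestrict
    (LinearMap.range_rangeRestrict φ)
  let ψ' := LinearMap.toContinuousLinearMap ψ
  refine ⟨R.card * ‖ψ'‖, by positivity, ?_⟩
  intro s hs X K hK hX
  rw [← hrange] at hs
  have h1 : φ (ψ ⟨s, hs⟩) = s := by
    have := LinearMap.congr_fun hψ ⟨s, hs⟩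
    exact congrArg Subtype.val this
  have h2 : ‖ψ ⟨s, hs⟩‖ ≤ ‖ψ'‖ * ‖s‖ := ψ'.le_opNorm ⟨s, hs⟩
  have h3 : X ⬝ᵥ s = ∑ r : R, ψ ⟨s, hs⟩ r * (X ⬝ᵥ v r) := by
    conv_lhs => rw [← h1]
    simp only [φ, Fintype.linearCombination_apply, dotProduct_sum, dotProduct_smul, smul_eq_mul]
  rw [h3]
  calc |∑ r : R, ψ ⟨s, hs⟩ r * (X ⬝ᵥ v r)| ≤ ∑ r : R, |ψ ⟨s, hs⟩ r * (X ⬝ᵥ v r)| :=
        Finset.abs_sum_le_sum_abs _ _
    _ ≤ ∑ _r : R, ‖ψ'‖ * ‖s‖ * K := by
        apply Finset.sum_le_sum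
        intro r _
        rw [abs_mul]
        refine mul_le_mul (le_trans ?_ h2) (hX r r.2) (abs_nonneg _) (by positivity)
        exact norm_le_pi_norm (ψ ⟨s, hs⟩) r
    _ = R.card * ‖ψ'‖ * K * ‖s‖ := by
        rw [Finset.sum_const, nsmul_eq_mul, Finset.card_univ, Fintype.card_coe]
        ring

theorem log_sub_mul_sub {x c : ℝ} (hx : 0 < x) (hc : 0 < c) :
    (log x - log c) * (x - c) = |log x - log c| * |x - c| := by
  rw [← abs_mul, abs_of_nonneg]
  rcases le_total x c with h | h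
  · exact mul_nonneg_of_nonpos_of_nonpos (by linarith [log_le_log hx h]) (by linarith)
  · exact mul_nonneg (by linarith [log_le_log hc h]) (by linarith)

theorem birch_box {D : Type*} [Fintype D] {c : D → ℝ} (hc : ∀ i, 0 < c i) {Q : ℝ} (hQ : 0 ≤ Q) :
    ∃ m0 M0 : ℝ, 0 < m0 ∧ ∀ x : D → ℝ, (∀ i, 0 < x i) →
      ∑ i, (log (x i) - log (c i)) * (x i - c i) ≤ Q * ‖x - c‖ → x ∈ Box m0 M0 := by
  set A : ℝ := ‖c‖ * (exp Q + 1) with hA
  have hA0 : 0 ≤ A := by positivity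
  obtain ⟨m0, hm0, hle⟩ := exists_pos_le
    (fun i => min (c i / 2) (c i * exp (-(2 * Q * A / c i))))
    (fun i => lt_min (by linarith [hc i]) (mul_pos (hc i) (exp_pos _)))
  refine ⟨m0, ‖c‖ + A, hm0, fun x hx hsum => ?_⟩
  have hterm : ∀ i, |log (x i) - log (c i)| * |x i - c i| ≤ Q * ‖x - c‖ := by
    intro i
    rw [← log_sub_mul_sub (hx i) (hc i)]
    refine le_trans ?_ hsum
    exact Finset.single_le_sum (f := fun i => (log (x i) - log (c i)) * (x i - c i))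
      (fun j _ => by rw [log_sub_mul_sub (hx j) (hc j)]; positivity) (Finset.mem_univ i)
  have hci : ∀ i, c i ≤ ‖c‖ := fun i => le_trans (le_abs_self _) (norm_le_pi_norm c i)
  have hnorm : ‖x - c‖ ≤ A := by
    by_contra hcon
    push Not at hcon
    have hpos : 0 < ‖x - c‖ := lt_of_le_of_lt hA0 hcon
    have : ‖x - c‖ < ‖x - c‖ := by
      apply (pi_norm_lt_iff hpos).mpr
      intro i
      by_contra hi
      push Not at hi
      have hi' : ‖x - c‖ ≤ |x i - c i| := hi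
      have h1 : |log (x i) - log (c i)| * ‖x - c‖ ≤ Q * ‖x - c‖ :=
        le_trans (mul_le_mul_of_nonneg_left hi' (abs_nonneg _)) (hterm i)
      have h2 : |log (x i) - log (c i)| ≤ Q := le_of_mul_le_mul_right h1 hpos
      have h3 : x i ≤ c i * exp Q := by
        rw [← exp_log (hx i), ← exp_log (hc i), ← exp_add]
        exact exp_le_exp.mpr (by linarith [(abs_le.mp h2).2])
      have h4 : |x i - c i| ≤ A := by
        have h5 : c i * exp Q ≤ ‖c‖ * exp Q := mul_le_mul_of_nonneg_right (hci i) (exp_pos _).le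
        have h6 : 0 ≤ ‖c‖ * exp Q := by positivity
        rw [abs_le]
        constructor <;> nlinarith [hx i, hc i, hci i]
      linarith
    exact lt_irrefl _ this
  intro i
  have h1 : |x i - c i| ≤ A := le_trans (norm_le_pi_norm (x - c) i) hnorm
  refine ⟨?_, by linarith [(abs_le.mp h1).2, hci i]⟩
  refine le_trans (hle i) ?_
  rcases le_total (c i / 2) (x i) with h2 | h2
  · exact (min_le_left _ _).trans h2
  · refine (min_le_right _ _).trans ?_
    have h3 : c i / 2 ≤ |x i - c i| := by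
      rw [abs_sub_comm, abs_of_nonneg (by linarith [hc i])]; linarith
    have h4 : |log (x i) - log (c i)| * (c i / 2) ≤ Q * A :=
      le_trans (mul_le_mul_of_nonneg_left h3 (abs_nonneg _))
        (le_trans (hterm i) (mul_le_mul_of_nonneg_left hnorm hQ))
    have h5 : |log (x i) - log (c i)| ≤ 2 * Q * A / c i := by
      rw [le_div_iff₀ (hc i)]; linarith
    calc c i * exp (-(2 * Q * A / c i)) = exp (log (c i) + -(2 * Q * A / c i)) := by
          rw [exp_add, exp_log (hc i)]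
      _ ≤ exp (log (x i)) := exp_le_exp.mpr (by linarith [(abs_le.mp h5).1])
      _ = x i := exp_log (hx i)

variable {d : ℕ}

theorem birch (R : Finset ((Fin d → ℕ) × (Fin d → ℕ))) {c : Fin d → ℝ} (hc : ∀ i, 0 < c i)
    {K : ℝ} (hK : 0 ≤ K) : ∃ m0 M0 : ℝ, 0 < m0 ∧ ∀ x ∈ posClass R c,
      (∀ r ∈ R, |(fun j => log (x j)) ⬝ᵥ rvec r| ≤ K) → x ∈ Box m0 M0 := by
  obtain ⟨C, hC, hb⟩ := span_functional_bound R (rvec (d := d))
  have hL : 0 ≤ ∑ i, |log (c i)| := Finset.sum_nonneg fun _ _ => abs_nonneg _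
  obtain ⟨m0, M0, hm0, h⟩ := birch_box hc (Q := C * K + ∑ i, |log (c i)|) (by positivity)
  refine ⟨m0, M0, hm0, fun x hx hcore => h x hx.2 ?_⟩
  have h1 := hb _ hx.1 _ K hK hcore
  have h2 : |∑ i, log (c i) * (x i - c i)| ≤ (∑ i, |log (c i)|) * ‖x - c‖ := by
    refine le_trans (Finset.abs_sum_le_sum_abs _ _) ?_
    rw [Finset.sum_mul]
    apply Finset.sum_le_sum
    intro i _
    rw [abs_mul]
    exact mul_le_mul_of_nonneg_left (norm_le_pi_norm (x - c) i) (abs_nonneg _)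
  have h3 : ∑ i, (log (x i) - log (c i)) * (x i - c i)
      = (fun j => log (x j)) ⬝ᵥ (x - c) - ∑ i, log (c i) * (x i - c i) := by
    simp only [dotProduct, Pi.sub_apply, sub_mul, Finset.sum_sub_distrib]
  rw [h3]
  nlinarith [(abs_le.mp h1).2, (abs_le.mp h2).1]

theorem traj_sub_mem {D : Type*} [Fintype D] [DecidableEq D] {F : (D → ℝ) → Set (D → ℝ)}
    (S : Submodule ℝ (D → ℝ)) (hF : ∀ x, F x ⊆ S) {x : ℝ → D → ℝ} {a b : ℝ} (hab : a ≤ b)
    (hx : Traj F x a b) : x b - x a ∈ S := by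
  rw [← Subspace.forall_mem_dualAnnihilator_apply_eq_zero_iff]
  intro φ hφ
  rw [Submodule.mem_dualAnnihilator] at hφ
  let z : D → ℝ := fun i => φ (fun j => if i = j then 1 else 0)
  have hz : ∀ u : D → ℝ, z ⬝ᵥ u = φ u := by
    intro u
    rw [LinearMap.pi_apply_eq_sum_univ φ u, dotProduct]
    exact Finset.sum_congr rfl fun i _ => by simp [z, mul_comm]
  have h1 := hx.2 a b le_rfl hab le_rfl z 0 (fun r _ g hg => by rw [hz, hφ g (hF _ hg)])
  have h2 := hx.2 a b le_rfl hab le_rfl (-z) 0 (fun r _ g hg => by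
    rw [neg_dotProduct, hz, hφ g (hF _ hg), neg_zero])
  rw [neg_dotProduct, neg_dotProduct] at h2
  rw [map_sub, ← hz, ← hz]
  linarith

theorem fieldSet_subset (R : Finset ((Fin d → ℕ) × (Fin d → ℕ))) (ε : ℝ) (x : Fin d → ℝ) :
    fieldSet R ε x ⊆
      Submodule.span ℝ (rvec '' (R : Set ((Fin d → ℕ) × (Fin d → ℕ)))) := by
  rintro g ⟨k, _, rfl⟩
  exact Submodule.sum_mem _ fun r hr =>
    Submodule.smul_mem _ _ (Submodule.subset_span ⟨r, hr, rfl⟩)

theorem diss_fieldSet {R : Finset ((Fin d → ℕ) × (Fin d → ℕ))} (hR : WeaklyReversible R)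
    {ε : ℝ} (hε : 0 < ε) : ∃ δ, Diss (diffs R) δ (fieldSet R ε) := by
  obtain ⟨δ, N, _, h⟩ := network_ineq hR hε
  exact ⟨δ, fun x hx z hz g hg => (h x hx z hz g hg).1⟩

/-- Any trajectory starting at a positive point stays in a fixed positive box. -/
theorem stay_box {R : Finset ((Fin d → ℕ) × (Fin d → ℕ))} (hR : WeaklyReversible R)
    {ε : ℝ} (hε : 0 < ε) {x0 : Fin d → ℝ} (hx0 : ∀ i, 0 < x0 i) :
    ∃ m M, 0 < m ∧ ∀ (x : ℝ → Fin d → ℝ) (a b : ℝ), ContinuousOn x (Icc a b) →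
      (∀ t ∈ Icc a b, (∀ s ∈ Icc a t, x s ∈ OBox (m / 2) (M + 1)) → Traj (fieldSet R ε) x a t) →
      x a = x0 → ∀ t ∈ Icc a b, x t ∈ Box m M := by
  obtain ⟨δ, hδ⟩ := diss_fieldSet hR hε
  obtain ⟨m0, hm0, hle⟩ := exists_pos_le x0 hx0
  obtain ⟨m, M, hm, h⟩ := apriori hδ hm0 ‖x0‖
  refine ⟨m, M, hm, fun x a b hcont hx h0 => h x a b hcont hx ?_⟩
  rw [h0]
  exact fun j => ⟨hle j, le_trans (le_abs_self _) (norm_le_pi_norm x0 j)⟩

theorem abstract_permanence {R : Finset ((Fin d → ℕ) × (Fin d → ℕ))} (hR : WeaklyReversible R)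
    {ε : ℝ} (hε : 0 < ε) {c : Fin d → ℝ} (hc : ∀ i, 0 < c i) :
    ∃ K : Set (Fin d → ℝ), IsCompact K ∧ K ⊆ posClass R c ∧
      ∀ x : ℝ → Fin d → ℝ, (∀ T, 0 ≤ T → Traj (fieldSet R ε) x 0 T) → x 0 ∈ posClass R c →
        (∀ t, 0 ≤ t → x t ∈ posClass R c) ∧ ∃ t0, ∀ t, t0 ≤ t → x t ∈ K := by
  classical
  obtain ⟨δ, N, hN, hineq⟩ := network_ineq hR hε
  have hδ : Diss (diffs R) δ (fieldSet R ε) := fun x hx z hz g hg => (hineq x hx z hz g hg).1
  obtain ⟨ρ, 𝒞, h𝒞⟩ := exists_lyap (Finset.univ : Finset (Fin d)) (diffs R) δ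
  have hρ := h𝒞.rho
  have hsz := size_nonneg (R.image rvec)
  have hK0 : 0 ≤ N + ρ * size (R.image rvec) := by positivity
  obtain ⟨m0, M0, hm0, hcore⟩ := birch R hc hK0
  obtain ⟨m, M, hm, hbox⟩ := apriori hδ hm0 M0
  set S := Submodule.span ℝ (rvec '' (R : Set ((Fin d → ℕ) × (Fin d → ℕ)))) with hS
  have hclosed : IsClosed {x : Fin d → ℝ | x - c ∈ S} :=
    (S.closed_of_finiteDimensional).preimage (continuous_id.sub continuous_const)
  refine ⟨Box m M ∩ {x | x - c ∈ S}, (isCompact_box m M).inter_right hclosed,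
    fun x hx => ⟨hx.2, fun i => lt_of_lt_of_le hm (hx.1 i).1⟩, ?_⟩
  intro x hx h0
  obtain ⟨m1, M1, hm1, hstay⟩ := stay_box hR hε h0.2
  have hb1 : ∀ t, 0 ≤ t → x t ∈ Box m1 M1 := fun t ht =>
    hstay x 0 t (hx t ht).1 (fun s hs _ => hx s hs.1) rfl t ⟨ht, le_rfl⟩
  have hpos : ∀ t, 0 ≤ t → ∀ j, 0 < x t j := fun t ht j => lt_of_lt_of_le hm1 (hb1 t ht j).1
  have hclass : ∀ t, 0 ≤ t → x t ∈ posClass R c := by
    intro t ht
    refine ⟨?_, hpos t ht⟩
    have h1 := traj_sub_mem S (fieldSet_subset R ε) ht (hx t ht)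
    have h2 := S.add_mem h1 h0.1
    simpa using h2
  refine ⟨hclass, ?_⟩
  have henter : ∃ t1, 0 ≤ t1 ∧ ∀ r ∈ R,
      |(fun j => log (x t1 j)) ⬝ᵥ rvec r| ≤ N + ρ * size (R.image rvec) := by
    by_contra hcon
    push Not at hcon
    have hne : (Finset.univ : Finset (Fin d)).Nonempty := by
      obtain ⟨r, _, hr⟩ := hcon 0 le_rfl
      rw [Finset.nonempty_iff_ne_empty]
      intro h
      rw [dotProduct, h, Finset.sum_empty, abs_zero] at hr
      linarith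
    obtain ⟨μ, hμ, hμle⟩ := exists_pos_le (D := R) (fun r => ∏ i, m1 ^ r.1.1 i)
      (fun r => Finset.prod_pos fun i _ => pow_pos hm1 _)
    have hγ : 0 < ε / 2 * μ := by positivity
    have hdec : ∀ T, 0 ≤ T → Phi 𝒞 (x T) ≤ Phi 𝒞 (x 0) + -(ε / 2 * μ) * (T - 0) := by
      intro T hT
      refine phi_mono h𝒞 hne hT (hx T hT) (fun t ht => hpos t ht.1) ?_
      intro t ht z _ hz g hg
      refine (hineq (x t) (hpos t ht.1) z hz.2 g hg).2 μ hμ.le ?_ ?_
      · intro r hr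
        refine le_trans (hμle ⟨r, hr⟩) ?_
        exact Finset.prod_le_prod (fun i _ => (pow_pos hm1 _).le)
          fun i _ => pow_le_pow_left₀ hm1.le (hb1 t ht.1 i).1 _
      · obtain ⟨r, hr, hbig⟩ := hcon t ht.1
        refine ⟨r, hr, ?_⟩
        have h1 := abs_sum_le_size (Finset.mem_image_of_mem rvec hr) Finset.univ
          (fun j => log (x t j) - z j) (by linarith : (0 : ℝ) ≤ ρ) hz.1
        have h2 : (fun j => log (x t j)) ⬝ᵥ rvec r
            = z ⬝ᵥ rvec r + ∑ j, (log (x t j) - z j) * rvec r j := by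
          simp only [dotProduct, sub_mul, Finset.sum_sub_distrib]
          ring
        have h3 := abs_add_le (z ⬝ᵥ rvec r) (∑ j, (log (x t j) - z j) * rvec r j)
        rw [← h2] at h3
        linarith
    set B : ℝ := (((Finset.univ : Finset (Fin d)).card : ℕ) : ℝ) * exp ρ with hB
    set T : ℝ := (|Phi 𝒞 (x 0)| + B + 1) / (ε / 2 * μ) with hT
    have hB0 : 0 ≤ B := by positivity
    have hT0 : 0 ≤ T := by positivity
    have h1 := hdec T hT0
    have h2 := h𝒞.flat_le hne (hpos T hT0) ρ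
    have h3 : ε / 2 * μ * T = |Phi 𝒞 (x 0)| + B + 1 := by rw [hT]; field_simp
    have h4 := le_abs_self (Phi 𝒞 (x 0))
    rw [sub_self, zero_mul] at h2
    linarith
  obtain ⟨t1, ht1, hin⟩ := henter
  refine ⟨t1, fun t ht => ⟨?_, (hclass t (ht1.trans ht)).1⟩⟩
  have hT := hx t (ht1.trans ht)
  exact hbox x t1 t (hT.mono ht1 le_rfl).1 (fun s hs _ => hT.mono ht1 hs.2)
    (hcore _ (hclass t1 ht1) hin) t ⟨ht, le_rfl⟩

end Vale.Agent.P072
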