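import Mathlib

/-! Reaction networks with mass-action kinetics: definitions used in the statements.
A complex is a vector `y : Fin d → ℕ`, a reaction `y → y'` is the pair `(y, y')`. -/

namespace Vale.Agent.P072

open Set

variable {d : ℕ}

/-- The reaction vector `y' - y` of the reaction `r = (y, y')`. -/
def rvec (r : (Fin d → ℕ) × (Fin d → ℕ)) : Fin d → ℝ := fun i => (r.2 i : ℝ) - (r.1 i : ℝ)

/-- For every reaction `y → y'` there is a directed path of reactions from `y'` to `y`. -/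
def WeaklyReversible (R : Finset ((Fin d → ℕ) × (Fin d → ℕ))) : Prop :=
  ∀ r ∈ R, Relation.ReflTransGen (fun y y' => (y, y') ∈ R) r.2 r.1

/-- The mass-action vector field `∑ k_{y → y'} x ^ y (y' - y)`. -/
noncomputable def massAction (R : Finset ((Fin d → ℕ) × (Fin d → ℕ)))
    (k : (Fin d → ℕ) × (Fin d → ℕ) → ℝ) (x : Fin d → ℝ) : Fin d → ℝ :=
  ∑ r ∈ R, (k r * ∏ i, x i ^ r.1 i) • rvec r

/-- The positive stoichiometric class `(c + S) ∩ ℝ^d_{>0}`, `S` the span of the reaction vectors. -/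
def posClass (R : Finset ((Fin d → ℕ) × (Fin d → ℕ))) (c : Fin d → ℝ) : Set (Fin d → ℝ) :=
  {x | x - c ∈ Submodule.span ℝ (rvec '' (R : Set ((Fin d → ℕ) × (Fin d → ℕ)))) ∧ ∀ i, 0 < x i}

/-- `x` is a classical solution of `x' = f x` on the time interval `I`. -/
def SolvesOn (f : (Fin d → ℝ) → Fin d → ℝ) (x : ℝ → Fin d → ℝ) (I : Set ℝ) : Prop :=
  ∀ t ∈ I, HasDerivWithinAt x (f (x t)) I t

/-- The system `x' = f x` is permanent on `P`: through every point of `P` there is a global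
positive solution, every solution on `[0, T)` with the same initial value is its restriction,
and one compact `K ⊆ P` eventually contains every global solution starting in `P`. -/
def Permanent (f : (Fin d → ℝ) → Fin d → ℝ) (P : Set (Fin d → ℝ)) : Prop :=
  (∀ x₀ ∈ P, ∃ x : ℝ → Fin d → ℝ, x 0 = x₀ ∧ SolvesOn f x (Ici 0) ∧
      (∀ t, 0 ≤ t → ∀ i, 0 < x t i) ∧
      ∀ (T : ℝ) (z : ℝ → Fin d → ℝ), z 0 = x₀ → SolvesOn f z (Ico 0 T) → EqOn z x (Ico 0 T)) ∧
  ∃ K : Set (Fin d → ℝ), IsCompact K ∧ K ⊆ P ∧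
    ∀ x : ℝ → Fin d → ℝ, x 0 ∈ P → SolvesOn f x (Ici 0) → ∃ t₀, ∀ t, t₀ ≤ t → x t ∈ K

/-- `x` is a Carathéodory solution of `x' = f t x` on the time interval `I` starting at `0`:
continuous, and `x t = x 0 + ∫₀ᵗ f s (x s) ds` with an integrable integrand. -/
def SolvesIntegralOn (f : ℝ → (Fin d → ℝ) → Fin d → ℝ) (x : ℝ → Fin d → ℝ) (I : Set ℝ) : Prop :=
  ContinuousOn x I ∧ ∀ t ∈ I, IntervalIntegrable (fun s => f s (x s)) MeasureTheory.volume 0 t ∧
    x t = x 0 + ∫ s in (0 : ℝ)..t, f s (x s)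

/-- Permanence of the nonautonomous system `x' = f t x` on `P` with absorbing set `K`. -/
def PermanentWith (f : ℝ → (Fin d → ℝ) → Fin d → ℝ) (P K : Set (Fin d → ℝ)) : Prop :=
  (∀ x₀ ∈ P, ∃ x : ℝ → Fin d → ℝ, x 0 = x₀ ∧ SolvesIntegralOn f x (Ici 0) ∧
      (∀ t, 0 ≤ t → ∀ i, 0 < x t i) ∧
      ∀ (T : ℝ) (z : ℝ → Fin d → ℝ), z 0 = x₀ → SolvesIntegralOn f z (Ico 0 T) →
        EqOn z x (Ico 0 T)) ∧
  ∀ x : ℝ → Fin d → ℝ, x 0 ∈ P → SolvesIntegralOn f x (Ici 0) → ∃ t₀, ∀ t, t₀ ≤ t → x t ∈ K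

end Vale.Agent.P072
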