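import Vale.Agent.P072.Round

/-! The key combinatorial lemma: a hierarchically rounded family of price vectors. -/

namespace Vale.Agent.P072

open Finset Real

variable {D : Type*} [Fintype D] [DecidableEq D]

/-- The vector equal to `β` on `A` and `0` elsewhere. -/
def ind (A : Finset D) (β : ℝ) : D → ℝ := fun j => if j ∈ A then β else 0

/-- The value of the affine function `p` at the point `exp X`. -/
noncomputable def val (X : D → ℝ) (p : (D → ℝ) × ℝ) : ℝ := ∑ j, p.1 j * exp (X j) - p.2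

/-- Total mass on `A`. -/
noncomputable def mass (X : D → ℝ) (A : Finset D) : ℝ := ∑ j ∈ A, exp (X j)

structure Fam (J : Finset D) (V : Finset (D → ℝ)) (Γ Λ : ℝ) (w : D → ℝ) (ω : ℝ) (U : Set ℝ)
    (𝒞 : Set ((D → ℝ) × ℝ)) : Prop where
  supp : ∀ p ∈ 𝒞, ∀ j, j ∉ J → p.1 j = 0
  mem : ∀ p ∈ 𝒞, ∀ j ∈ J, p.1 j ∈ U
  nonneg : ∀ p ∈ 𝒞, 0 ≤ p.2
  cost : ∀ p ∈ 𝒞, ∀ j ∈ J, exp (p.1 j - Λ * ω) ≤ p.2
  flat : ∀ τ : ℝ, τ + Λ * ω ∈ U →
    ∃ β c : ℝ, (ind J β, c) ∈ 𝒞 ∧ |τ - β| ≤ Λ * ω ∧ c ≤ J.card * exp τ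
  near : ∀ X : D → ℝ, (∀ j ∈ J, X j + Λ * ω ∈ U) → ∀ p ∈ 𝒞, ∀ ε : ℝ,
    (∀ j ∈ J, 2 * ε ≤ exp (X j)) → (∀ q ∈ 𝒞, val X q ≤ val X p + ε) →
    ∃ ω', ω ≤ ω' ∧ ω' ≤ Λ * ω ∧ Good V Γ (w + p.1) ω' ∧ ∀ j ∈ J, |X j - p.1 j| ≤ 2 * ω'

theorem Fam.mono {J : Finset D} {V : Finset (D → ℝ)} {Γ Λ Λ' : ℝ} {w : D → ℝ} {ω : ℝ}
    {U : Set ℝ} {𝒞 : Set ((D → ℝ) × ℝ)} (h : Fam J V Γ Λ w ω U 𝒞) (hΛ : Λ ≤ Λ') (hω : 0 ≤ ω)
    (hU : IsLowerSet U) : Fam J V Γ Λ' w ω U 𝒞 := by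
  have hm : Λ * ω ≤ Λ' * ω := mul_le_mul_of_nonneg_right hΛ hω
  refine ⟨h.supp, h.mem, h.nonneg, ?_, ?_, ?_⟩
  · intro p hp j hj
    exact le_trans (exp_le_exp.mpr (by linarith)) (h.cost p hp j hj)
  · intro τ hτ
    obtain ⟨β, c, h1, h2, h3⟩ := h.flat τ (hU (by linarith) hτ)
    exact ⟨β, c, h1, le_trans h2 hm, h3⟩
  · intro X hX p hp ε hε hmax
    obtain ⟨ω', h1, h2, h3, h4⟩ := h.near X (fun j hj => hU (by linarith) (hX j hj)) p hp ε hε hmax
    exact ⟨ω', h1, le_trans h2 hm, h3, h4⟩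

theorem sum_ind_mul (A : Finset D) (β : ℝ) (f : D → ℝ) :
    ∑ j, ind A β j * f j = β * ∑ j ∈ A, f j := by
  rw [Finset.mul_sum, ← Finset.sum_filter_add_sum_filter_not Finset.univ (fun j => j ∈ A)]
  have h1 : Finset.univ.filter (fun j => j ∈ A) = A := by ext j; simp
  have h2 : ∑ j ∈ Finset.univ.filter (fun j => ¬ j ∈ A), ind A β j * f j = 0 := by
    apply Finset.sum_eq_zero
    intro j hj
    simp only [Finset.mem_filter] at hj
    simp [ind, hj.2]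
  rw [h1, h2, add_zero]
  apply Finset.sum_congr rfl
  intro j hj
  simp [ind, hj]

theorem val_add (X : D → ℝ) (A : Finset D) (β c : ℝ) (q : (D → ℝ) × ℝ) :
    val X (ind A β + q.1, c + q.2) = β * mass X A - c + val X q := by
  simp only [val, mass, Pi.add_apply, add_mul, Finset.sum_add_distrib, sum_ind_mul]
  ring

theorem val_ind (X : D → ℝ) (A : Finset D) (β c : ℝ) :
    val X (ind A β, c) = β * mass X A - c := by
  simp only [val, mass, sum_ind_mul]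

theorem val_le (X : D → ℝ) (A : Finset D) (b : ℝ) (q : (D → ℝ) × ℝ)
    (h0 : ∀ j, j ∉ A → q.1 j = 0) (h1 : ∀ j ∈ A, q.1 j ≤ b) :
    val X q ≤ b * mass X A - q.2 := by
  rw [← val_ind]
  simp only [val]
  apply sub_le_sub_right
  apply Finset.sum_le_sum
  intro j _
  apply mul_le_mul_of_nonneg_right _ (exp_pos _).le
  by_cases hj : j ∈ A
  · simp [ind, hj, h1 j hj]
  · simp [ind, hj, h0 j hj]

omit [Fintype D] [DecidableEq D] in
theorem mass_nonneg (X : D → ℝ) (A : Finset D) : 0 ≤ mass X A :=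
  Finset.sum_nonneg fun _ _ => (exp_pos _).le

omit [Fintype D] [DecidableEq D] in
theorem le_mass (X : D → ℝ) {A : Finset D} {j : D} (hj : j ∈ A) : exp (X j) ≤ mass X A :=
  Finset.single_le_sum (f := fun j => exp (X j)) (fun _ _ => (exp_pos _).le) hj

omit [Fintype D] in
theorem mass_sdiff (X : D → ℝ) {A J : Finset D} (h : A ⊆ J) :
    mass X J = mass X A + mass X (J \ A) := by
  simp only [mass]
  rw [← Finset.sum_sdiff h]
  ring

/-- Cost of a block of size `a` placed at value `b.1` with width `b.2`. -/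
noncomputable def kap (Θ : ℝ) (b : ℝ × ℝ) (a : ℕ) : ℝ :=
  ∑ i ∈ range a, exp (b.1 - Θ ^ i * b.2)

theorem kap_nonneg (Θ : ℝ) (b : ℝ × ℝ) (a : ℕ) : 0 ≤ kap Θ b a :=
  Finset.sum_nonneg fun _ _ => (exp_pos _).le

theorem kap_succ (Θ : ℝ) (b : ℝ × ℝ) (a : ℕ) :
    kap Θ b (a + 1) = kap Θ b a + exp (b.1 - Θ ^ a * b.2) := Finset.sum_range_succ _ _

theorem kap_le {Θ : ℝ} (hΘ : 1 ≤ Θ) {b : ℝ × ℝ} (hb : 0 ≤ b.2) {a n : ℕ} (h : a ≤ n) :
    kap Θ b n ≤ kap Θ b a + n * exp (b.1 - Θ ^ a * b.2) := by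
  obtain ⟨m, rfl⟩ := Nat.exists_eq_add_of_le h
  have key : ∀ m : ℕ, kap Θ b (a + m) ≤ kap Θ b a + m * exp (b.1 - Θ ^ a * b.2) := by
    intro m
    induction m with
    | zero => simp
    | succ m ih =>
      rw [← add_assoc, kap_succ]
      have h1 : Θ ^ a ≤ Θ ^ (a + m) := pow_le_pow_right₀ hΘ (Nat.le_add_right _ _)
      have h2 : exp (b.1 - Θ ^ (a + m) * b.2) ≤ exp (b.1 - Θ ^ a * b.2) :=
        exp_le_exp.mpr (by nlinarith)
      push_cast
      linarith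
  have h3 := key m
  have h4 : (m : ℝ) * exp (b.1 - Θ ^ a * b.2) ≤ ((a + m : ℕ) : ℝ) * exp (b.1 - Θ ^ a * b.2) := by
    apply mul_le_mul_of_nonneg_right _ (exp_pos _).le
    push_cast
    have : (0 : ℝ) ≤ a := Nat.cast_nonneg a
    linarith
  linarith

theorem kap_le' {Θ : ℝ} (hΘ : 1 ≤ Θ) {b : ℝ × ℝ} (hb : 0 ≤ b.2) (n : ℕ) :
    kap Θ b n ≤ n * exp (b.1 - b.2) := by
  have := kap_le hΘ hb (Nat.zero_le n)
  simpa [kap] using this

theorem le_kap {Θ : ℝ} (b : ℝ × ℝ) {a : ℕ} (ha : 1 ≤ a) : exp (b.1 - b.2) ≤ kap Θ b a := by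
  have := Finset.single_le_sum (f := fun i : ℕ => exp (b.1 - Θ ^ i * b.2))
    (s := range a) (fun _ _ => (exp_pos _).le) (Finset.mem_range.mpr ha : 0 ∈ range a)
  simpa [kap] using this

/-- The family built from the subfamilies. -/
def big (J : Finset D) (𝒜 : Set (ℝ × ℝ)) (U : Set ℝ) (Θ : ℝ)
    (Cs : ℝ × ℝ → Finset D → Set ((D → ℝ) × ℝ)) : Set ((D → ℝ) × ℝ) :=
  {p | ∃ b ∈ 𝒜, b.1 ∈ U ∧ ∃ A ⊆ J, A.Nonempty ∧ ∃ q ∈ Cs b A,
    p = (ind A b.1 + q.1, kap Θ b A.card + q.2)}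

/-- The data of one inductive step. -/
structure Setup (J : Finset D) (V : Finset (D → ℝ)) (Γ L G : ℝ) (w : D → ℝ) (ω : ℝ) (U : Set ℝ)
    (𝒜 : Set (ℝ × ℝ)) (Cs : ℝ × ℝ → Finset D → Set ((D → ℝ) × ℝ)) : Prop where
  hJ : J.Nonempty
  hL : 1 ≤ L
  hG : 1 ≤ G
  hω : 2 * (J.card + 1 + (2 * G + 3) * (1 + 2 * J.card)) ≤ ω
  hU : IsLowerSet U
  width : ∀ b ∈ 𝒜, ω ≤ b.2 ∧ b.2 ≤ G * ω
  cover : ∀ τ : ℝ, ∃ b ∈ 𝒜, |τ - b.1| ≤ b.2
  up : ∀ b ∈ 𝒜, ∃ b' ∈ 𝒜, b.1 + 1 ≤ b'.1 ∧ |b.1 + b.2 + 1 - b'.1| ≤ b'.2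
  sub : ∀ b ∈ 𝒜, ∀ A ⊆ J, A.Nonempty →
    Fam (J \ A) V Γ L (w + ind A b.1) ((L + 2) ^ (A.card - 1) * b.2) (Set.Iic (b.1 - 1)) (Cs b A)

namespace Setup

variable {J : Finset D} {V : Finset (D → ℝ)} {Γ L G : ℝ} {w : D → ℝ} {ω : ℝ} {U : Set ℝ}
    {𝒜 : Set (ℝ × ℝ)} {Cs : ℝ × ℝ → Finset D → Set ((D → ℝ) × ℝ)}

theorem omega_ge (S : Setup J V Γ L G w ω U 𝒜 Cs) : 2 * (J.card : ℝ) + 2 ≤ ω := by
  have h1 := S.hω
  have h2 := S.hG
  have h3 : (0 : ℝ) ≤ J.card := Nat.cast_nonneg _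
  nlinarith

theorem flat_mem (S : Setup J V Γ L G w ω U 𝒜 Cs) {b : ℝ × ℝ} (hb : b ∈ 𝒜) (hU : b.1 ∈ U) :
    (ind J b.1, kap (L + 2) b J.card) ∈ big J 𝒜 U (L + 2) Cs := by
  have hs := S.sub b hb J le_rfl S.hJ
  obtain ⟨β, c, h1, _, h3⟩ := hs.flat (b.1 - 1 - L * ((L + 2) ^ (J.card - 1) * b.2)) (by simp)
  have hc : c = 0 := by
    have h4 := hs.nonneg _ h1
    simp only [sdiff_self, Finset.bot_eq_empty, Finset.card_empty, Nat.cast_zero, zero_mul] at h3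
    exact le_antisymm h3 h4
  refine ⟨b, hb, hU, J, le_rfl, S.hJ, (ind (J \ J) β, c), h1, ?_⟩
  ext j
  · simp [ind]
  · simp [hc]

theorem val_elem_le (S : Setup J V Γ L G w ω U 𝒜 Cs) (X : D → ℝ) {b : ℝ × ℝ} (hb : b ∈ 𝒜)
    {A : Finset D} (hA : A ⊆ J) (hAn : A.Nonempty) {q : (D → ℝ) × ℝ} (hq : q ∈ Cs b A) :
    val X (ind A b.1 + q.1, kap (L + 2) b A.card + q.2)
      ≤ b.1 * mass X J - mass X (J \ A) - kap (L + 2) b A.card := by
  have hs := S.sub b hb A hA hAn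
  rw [val_add, mass_sdiff X hA]
  have h1 := val_le X (J \ A) (b.1 - 1) q (hs.supp q hq) (hs.mem q hq)
  have h2 := hs.nonneg q hq
  nlinarith

/-- Merge exchange: the undecided coordinates are tiny. -/
theorem merge (S : Setup J V Γ L G w ω U 𝒜 Cs) (X : D → ℝ) {b : ℝ × ℝ} (hb : b ∈ 𝒜)
    (hU : b.1 ∈ U) {A : Finset D} (hA : A ⊆ J) (hAn : A.Nonempty) {q : (D → ℝ) × ℝ}
    (hq : q ∈ Cs b A) {ε : ℝ} (hε : ∀ j ∈ J, 2 * ε ≤ exp (X j))
    (hmax : ∀ q' ∈ big J 𝒜 U (L + 2) Cs,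
      val X q' ≤ val X (ind A b.1 + q.1, kap (L + 2) b A.card + q.2) + ε) :
    mass X (J \ A) ≤ 2 * J.card * exp (b.1 - (L + 2) ^ A.card * b.2) := by
  have h1 := hmax _ (S.flat_mem hb hU)
  have h2 := S.val_elem_le X hb hA hAn hq
  rw [val_ind] at h1
  have hb0 : 0 ≤ b.2 := by
    have := (S.width b hb).1
    have := S.omega_ge
    have h3 : (0 : ℝ) ≤ J.card := Nat.cast_nonneg _
    linarith
  have h3 := kap_le (Θ := L + 2) (by linarith [S.hL]) hb0 (Finset.card_le_card hA)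
  rcases (J \ A).eq_empty_or_nonempty with h0 | ⟨j, hj⟩
  · rw [h0]
    simp only [mass, Finset.sum_empty]
    positivity
  · have h4 := le_mass X hj
    have h5 := hε j (Finset.mem_sdiff.mp hj).1
    linarith

/-- Raising exchange: upper bound on all coordinates. -/
theorem upper (S : Setup J V Γ L G w ω U 𝒜 Cs) (X : D → ℝ) (hX : ∀ j ∈ J, X j + G * ω ∈ U)
    {b : ℝ × ℝ} (hb : b ∈ 𝒜)
    {A : Finset D} (hA : A ⊆ J) (hAn : A.Nonempty) {q : (D → ℝ) × ℝ}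
    (hq : q ∈ Cs b A) {ε : ℝ} (hε : ∀ j ∈ J, 2 * ε ≤ exp (X j))
    (hmax : ∀ q' ∈ big J 𝒜 U (L + 2) Cs,
      val X q' ≤ val X (ind A b.1 + q.1, kap (L + 2) b A.card + q.2) + ε)
    {i : D} (hi : i ∈ J) : X i ≤ b.1 + 2 * b.2 := by
  by_contra hcon
  push Not at hcon
  obtain ⟨b', hb', h1, h2⟩ := S.up b hb
  have hw := S.width b hb
  have hw' := S.width b' hb'
  have ho := S.omega_ge
  have hN : (0 : ℝ) ≤ J.card := Nat.cast_nonneg _
  have h3 := abs_le.mp h2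
  have hU' : b'.1 ∈ U := S.hU (by linarith [h3.1, hw'.2, hw.1]) (hX i hi)
  have h4 := hmax _ (S.flat_mem hb' hU')
  have h5 := S.val_elem_le X hb hA hAn hq
  rw [val_ind] at h4
  have h6 := kap_le' (Θ := L + 2) (by linarith [S.hL]) (b := b') (by linarith [hw'.1]) J.card
  have h7 : exp (b'.1 - b'.2) ≤ exp (b.1 + b.2 + 1) := exp_le_exp.mpr (by linarith [h3.1])
  have h8 := le_mass X hi
  have h9 := hε i hi
  have h10 := mass_nonneg X (J \ A)
  have h11 := kap_nonneg (L + 2) b A.card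
  have h12 := mass_nonneg X J
  have h13 : (b.1 + 1) * mass X J ≤ b'.1 * mass X J := mul_le_mul_of_nonneg_right h1 h12
  have h14 : (J.card : ℝ) * exp (b'.1 - b'.2) ≤ J.card * exp (b.1 + b.2 + 1) :=
    mul_le_mul_of_nonneg_left h7 hN
  have h15 : exp (X i) ≤ 2 * J.card * exp (b.1 + b.2 + 1) := by linarith
  have h16 : exp (b.1 + 2 * b.2) < exp (X i) := exp_lt_exp.mpr hcon
  have h17 : exp (b.1 + 2 * b.2) = exp (b.2 - 1) * exp (b.1 + b.2 + 1) := by
    rw [← exp_add]; congr 1; ring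
  have h18 : b.2 - 1 + 1 ≤ exp (b.2 - 1) := add_one_le_exp _
  have h19 := exp_pos (b.1 + b.2 + 1)
  have h20 : 2 * J.card * exp (b.1 + b.2 + 1) ≤ exp (b.2 - 1) * exp (b.1 + b.2 + 1) :=
    mul_le_mul_of_nonneg_right (by linarith [hw.1]) h19.le
  linarith

/-- The competitor used in the dropping exchange. -/
theorem drop_elem (S : Setup J V Γ L G w ω U 𝒜 Cs) (X : D → ℝ) {b : ℝ × ℝ} (hb : b ∈ 𝒜)
    (hU : b.1 ∈ U) {A : Finset D} (hA : A ⊆ J) {i : D} (hi : i ∈ A) :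
    ∃ q' ∈ big J 𝒜 U (L + 2) Cs,
      b.1 * mass X (A.erase i)
        + (b.1 - (2 * G + 3) * ((L + 2) ^ (A.card - 1) * b.2)) * mass X (J \ A.erase i)
        - kap (L + 2) b (A.card - 1)
        - J.card * exp (b.1 - 2 * ((L + 2) ^ (A.card - 1) * b.2)) ≤ val X q' := by
  have hw := S.width b hb
  have ho := S.omega_ge
  have hN : (0 : ℝ) ≤ J.card := Nat.cast_nonneg _
  have hL := S.hL
  have hG := S.hG
  have hcard : (A.erase i).card = A.card - 1 := Finset.card_erase_of_mem hi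
  rcases (A.erase i).eq_empty_or_nonempty with h0 | hne
  · have hc : A.card - 1 = 0 := by rw [← hcard, h0]; simp
    obtain ⟨b', hb', h1⟩ := S.cover (b.1 - 2 * b.2 - G * ω)
    have hw' := S.width b' hb'
    have h2 := abs_le.mp h1
    have hU' : b'.1 ∈ U := S.hU (by linarith [h2.1, hw'.2, hw.1]) hU
    refine ⟨_, S.flat_mem hb' hU', ?_⟩
    rw [val_ind, h0, hc]
    simp only [mass, Finset.sum_empty, mul_zero, zero_add, pow_zero, one_mul, Finset.sdiff_empty,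
      kap, Finset.range_zero, sub_zero]
    have h6 := kap_le' (Θ := L + 2) (by linarith) (b := b') (by linarith [hw'.1]) J.card
    have hGω : 0 ≤ G * ω := by nlinarith
    have h7 : exp (b'.1 - b'.2) ≤ exp (b.1 - 2 * b.2) := exp_le_exp.mpr (by linarith [h2.1])
    have h14 : (J.card : ℝ) * exp (b'.1 - b'.2) ≤ J.card * exp (b.1 - 2 * b.2) :=
      mul_le_mul_of_nonneg_left h7 hN
    have h12 := mass_nonneg X J
    have hGb : G * ω ≤ G * b.2 := mul_le_mul_of_nonneg_left hw.1 (by linarith)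
    have h13 : (b.1 - (2 * G + 3) * b.2) * mass X J ≤ b'.1 * mass X J :=
      mul_le_mul_of_nonneg_right (by nlinarith [h2.2, hw'.2, hw.1]) h12
    simp only [kap, mass] at h6 h13
    linarith
  · have hA' : A.erase i ⊆ J := (Finset.erase_subset i A).trans hA
    have hs := S.sub b hb (A.erase i) hA' hne
    have hpos : 1 ≤ (A.erase i).card := Finset.card_pos.mpr hne
    obtain ⟨m, hm⟩ : ∃ m, (A.erase i).card = m + 1 := ⟨(A.erase i).card - 1, by omega⟩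
    have hm1 : A.card - 1 = m + 1 := by rw [← hcard, hm]
    have hm2 : (A.erase i).card - 1 = m := by omega
    rw [hm2] at hs
    rw [hm1]
    set y : ℝ := (L + 2) ^ m * b.2 with hy
    have hy1 : b.2 ≤ y := by
      have : 1 ≤ (L + 2) ^ m := one_le_pow₀ (by linarith)
      nlinarith [hw.1]
    have hy2 : (L + 2) ^ (m + 1) * b.2 = (L + 2) * y := by rw [hy]; ring
    rw [hy2]
    have hy3 : 1 ≤ y := by linarith [hw.1]
    have hLy : 0 ≤ L * y := by nlinarith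
    obtain ⟨β, c, h1, h2, h3⟩ := hs.flat (b.1 - 2 * ((L + 2) * y))
      (by simp only [Set.mem_Iic]; nlinarith)
    refine ⟨_, ⟨b, hb, hU, A.erase i, hA', hne, _, h1, rfl⟩, ?_⟩
    rw [val_add, val_ind, hm]
    have h4 := abs_le.mp h2
    have h12 := mass_nonneg X (J \ A.erase i)
    have hGy : 0 ≤ G * ((L + 2) * y) := by positivity
    have h13 : (b.1 - (2 * G + 3) * ((L + 2) * y)) * mass X (J \ A.erase i)
        ≤ β * mass X (J \ A.erase i) :=
      mul_le_mul_of_nonneg_right (by nlinarith [h4.2]) h12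
    have h14 : ((J \ A.erase i).card : ℝ) ≤ J.card := by
      exact_mod_cast Finset.card_le_card Finset.sdiff_subset
    have h15 : ((J \ A.erase i).card : ℝ) * exp (b.1 - 2 * ((L + 2) * y))
        ≤ J.card * exp (b.1 - 2 * ((L + 2) * y)) :=
      mul_le_mul_of_nonneg_right h14 (exp_pos _).le
    linarith

/-- Dropping exchange: lower bound on the coordinates of the block. -/
theorem lower (S : Setup J V Γ L G w ω U 𝒜 Cs) (X : D → ℝ) {b : ℝ × ℝ} (hb : b ∈ 𝒜)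
    (hU : b.1 ∈ U) {A : Finset D} (hA : A ⊆ J) (hAn : A.Nonempty) {q : (D → ℝ) × ℝ}
    (hq : q ∈ Cs b A) {ε : ℝ} (hε : ∀ j ∈ J, 2 * ε ≤ exp (X j))
    (hmax : ∀ q' ∈ big J 𝒜 U (L + 2) Cs,
      val X q' ≤ val X (ind A b.1 + q.1, kap (L + 2) b A.card + q.2) + ε)
    {i : D} (hi : i ∈ A) : b.1 - 2 * ((L + 2) ^ (A.card - 1) * b.2) ≤ X i := by
  by_contra hcon
  push Not at hcon
  obtain ⟨q', hq', h1⟩ := S.drop_elem X hb hU hA hi
  have h2 := hmax q' hq'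
  have h3 := S.val_elem_le X hb hA hAn hq
  have h4 := S.merge X hb hU hA hAn hq hε hmax
  have hw := S.width b hb
  have ho := S.omega_ge
  have hN : (0 : ℝ) ≤ J.card := Nat.cast_nonneg _
  have hL := S.hL
  have hG := S.hG
  have hpos : 1 ≤ A.card := Finset.card_pos.mpr hAn
  obtain ⟨m, hm⟩ : ∃ m, A.card = m + 1 := ⟨A.card - 1, by omega⟩
  have hm1 : A.card - 1 = m := by omega
  rw [hm1] at h1 hcon
  rw [hm] at h2 h3 h4
  rw [kap_succ] at h2 h3
  set y : ℝ := (L + 2) ^ m * b.2 with hy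
  have hy1 : b.2 ≤ y := by
    have : 1 ≤ (L + 2) ^ m := one_le_pow₀ (by linarith)
    nlinarith [hw.1]
  have hy2 : (L + 2) ^ (m + 1) * b.2 = (L + 2) * y := by rw [hy]; ring
  rw [hy2] at h4
  have hy3 : ω ≤ y := by linarith [hw.1]
  have hA' : A.erase i ⊆ J := (Finset.erase_subset i A).trans hA
  have h5 := mass_sdiff X hA'
  have h6 : mass X (J \ A.erase i) = exp (X i) + mass X (J \ A) := by
    have : J \ A.erase i = insert i (J \ A) := by
      ext j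
      simp only [Finset.mem_sdiff, Finset.mem_erase, Finset.mem_insert]
      constructor
      · rintro ⟨h7, h8⟩
        by_cases hji : j = i
        · exact Or.inl hji
        · exact Or.inr ⟨h7, fun h => h8 ⟨hji, h⟩⟩
      · rintro (rfl | ⟨h7, h8⟩)
        · exact ⟨hA hi, fun h => h.1 rfl⟩
        · exact ⟨h7, fun h => h8 h.2⟩
    rw [this, mass, Finset.sum_insert (fun h => (Finset.mem_sdiff.mp h).2 hi)]
    rfl
  set E : ℝ := exp (b.1 - 2 * y) with hE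
  have hEpos : 0 < E := exp_pos _
  have h7 : exp (X i) ≤ E := exp_le_exp.mpr hcon.le
  have h8 : exp (b.1 - (L + 2) * y) ≤ E := exp_le_exp.mpr (by nlinarith)
  have h9 : mass X (J \ A) ≤ 2 * J.card * E :=
    le_trans h4 (mul_le_mul_of_nonneg_left h8 (by linarith))
  have h10 := hε i (hA hi)
  have h11 : exp (b.1 - y) = exp y * E := by rw [hE, ← exp_add]; congr 1; ring
  have h12 := mass_nonneg X (J \ A)
  have hM : 0 ≤ (2 * G + 3) * y := by
    apply mul_nonneg <;> linarith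
  have h13 : (2 * G + 3) * y * mass X (J \ A.erase i) ≤ (2 * G + 3) * y * ((1 + 2 * J.card) * E) :=
    mul_le_mul_of_nonneg_left (by rw [h6]; linarith) hM
  have h14 : exp y * E ≤ (J.card + 1 / 2 + (2 * G + 3) * y * (1 + 2 * J.card)) * E := by
    rw [h5] at h3
    nlinarith
  have h15 : exp y ≤ J.card + 1 / 2 + (2 * G + 3) * y * (1 + 2 * J.card) :=
    le_of_mul_le_mul_right h14 hEpos
  have h16 : 1 + y + y ^ 2 / 2 ≤ exp y := quadratic_le_exp_of_nonneg (by linarith)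
  have h17 := S.hω
  have h18 : (J.card + 1 + (2 * G + 3) * (1 + 2 * J.card)) * y ≤ y ^ 2 / 2 := by nlinarith
  nlinarith

theorem fam (S : Setup J V Γ L G w ω U 𝒜 Cs) :
    Fam J V Γ (L * (L + 2) ^ J.card * G) w ω U (big J 𝒜 U (L + 2) Cs) := by
  have ho := S.omega_ge
  have hN : (0 : ℝ) ≤ J.card := Nat.cast_nonneg _
  have hL := S.hL
  have hG := S.hG
  have hpow : 1 ≤ (L + 2) ^ J.card := one_le_pow₀ (by linarith)
  have hΛ : G * ω ≤ L * (L + 2) ^ J.card * G * ω := by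
    have h1 : 1 ≤ L * (L + 2) ^ J.card := by nlinarith
    have h2 : 0 ≤ G * ω := by nlinarith
    nlinarith
  refine ⟨?_, ?_, ?_, ?_, ?_, ?_⟩
  · rintro p ⟨b, hb, hU, A, hA, hAn, q, hq, rfl⟩ j hj
    have hs := S.sub b hb A hA hAn
    have h1 : j ∉ A := fun h => hj (hA h)
    have h2 := hs.supp q hq j (fun h => hj (Finset.mem_sdiff.mp h).1)
    simp [ind, h1, h2]
  · rintro p ⟨b, hb, hU, A, hA, hAn, q, hq, rfl⟩ j hj
    have hs := S.sub b hb A hA hAn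
    by_cases h1 : j ∈ A
    · have h2 := hs.supp q hq j (fun h => (Finset.mem_sdiff.mp h).2 h1)
      simpa [ind, h1, h2] using hU
    · have h2 := hs.mem q hq j (Finset.mem_sdiff.mpr ⟨hj, h1⟩)
      simp only [Set.mem_Iic] at h2
      refine S.hU ?_ hU
      simp only [ind, h1, Pi.add_apply, if_false]
      linarith
  · rintro p ⟨b, hb, hU, A, hA, hAn, q, hq, rfl⟩
    have hs := S.sub b hb A hA hAn
    exact add_nonneg (kap_nonneg _ _ _) (hs.nonneg q hq)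
  · rintro p ⟨b, hb, hU, A, hA, hAn, q, hq, rfl⟩ j hj
    have hs := S.sub b hb A hA hAn
    have hw := S.width b hb
    have h3 : (ind A b.1 + q.1) j ≤ b.1 := by
      by_cases h1 : j ∈ A
      · have h2 := hs.supp q hq j (fun h => (Finset.mem_sdiff.mp h).2 h1)
        simp [ind, h1, h2]
      · have h2 := hs.mem q hq j (Finset.mem_sdiff.mpr ⟨hj, h1⟩)
        simp only [Set.mem_Iic] at h2
        simp only [ind, h1, Pi.add_apply, if_false]
        linarith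
    have h4 := le_kap (Θ := L + 2) b (Finset.card_pos.mpr hAn)
    have h5 := hs.nonneg q hq
    have h6 : exp ((ind A b.1 + q.1) j - L * (L + 2) ^ J.card * G * ω) ≤ exp (b.1 - b.2) :=
      exp_le_exp.mpr (by linarith [hw.2])
    simp only
    linarith
  · intro τ hτ
    obtain ⟨b, hb, h1⟩ := S.cover τ
    have hw := S.width b hb
    have h2 := abs_le.mp h1
    have hU : b.1 ∈ U := S.hU (by linarith [h2.1, hw.2]) hτ
    refine ⟨b.1, _, S.flat_mem hb hU, by linarith [hw.2], ?_⟩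
    have h6 := kap_le' (Θ := L + 2) (by linarith) (b := b) (by linarith [hw.1]) J.card
    have h7 : exp (b.1 - b.2) ≤ exp τ := exp_le_exp.mpr (by linarith [h2.1])
    exact le_trans h6 (mul_le_mul_of_nonneg_left h7 hN)
  · rintro X hX p ⟨b, hb, hU, A, hA, hAn, q, hq, rfl⟩ ε hε hmax
    have hs := S.sub b hb A hA hAn
    have hw := S.width b hb
    have hmerge := S.merge X hb hU hA hAn hq hε hmax
    have hX' : ∀ j ∈ J, X j + G * ω ∈ U := fun j hj => S.hU (by linarith) (hX j hj)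
    have hup := fun i (hi : i ∈ J) => S.upper X hX' hb hA hAn hq hε hmax hi
    have hlow := fun i (hi : i ∈ A) => S.lower X hb hU hA hAn hq hε hmax hi
    have hpos : 1 ≤ A.card := Finset.card_pos.mpr hAn
    obtain ⟨m, hm⟩ : ∃ m, A.card = m + 1 := ⟨A.card - 1, by omega⟩
    have hm1 : A.card - 1 = m := by omega
    have hmJ : m ≤ J.card := by have := Finset.card_le_card hA; omega
    rw [hm1] at hs hlow
    rw [hm] at hmerge
    set y : ℝ := (L + 2) ^ m * b.2 with hy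
    have hy1 : b.2 ≤ y := by
      have : 1 ≤ (L + 2) ^ m := one_le_pow₀ (by linarith)
      nlinarith [hw.1]
    have hy2 : (L + 2) ^ (m + 1) * b.2 = (L + 2) * y := by rw [hy]; ring
    rw [hy2] at hmerge
    have hy3 : ω ≤ y := by linarith [hw.1]
    have hsubX : ∀ j ∈ J \ A, X j + L * y ∈ Set.Iic (b.1 - 1) := by
      intro j hj
      have h1 := le_mass X hj
      have h2 : exp (b.1 - 1 - L * y) = exp (y - 1) * exp y * exp (b.1 - (L + 2) * y) := by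
        rw [← exp_add, ← exp_add]; congr 1; ring
      have h3 : y - 1 + 1 ≤ exp (y - 1) := add_one_le_exp _
      have h4 : y + 1 ≤ exp y := add_one_le_exp _
      have h5 : 2 * (J.card : ℝ) ≤ exp (y - 1) * exp y := by nlinarith
      have h6 : exp (X j) ≤ exp (b.1 - 1 - L * y) := by
        rw [h2]
        exact le_trans (le_trans h1 hmerge) (mul_le_mul_of_nonneg_right h5 (exp_pos _).le)
      have h7 := exp_le_exp.mp h6
      simp only [Set.mem_Iic]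
      linarith
    have hsubmax : ∀ q' ∈ Cs b A, val X q' ≤ val X q + ε := by
      intro q' hq'
      have h1 := hmax _ ⟨b, hb, hU, A, hA, hAn, q', hq', rfl⟩
      rw [val_add, val_add] at h1
      linarith
    obtain ⟨ω', h1, h2, h3, h4⟩ := hs.near X hsubX q hq ε
      (fun j hj => hε j (Finset.mem_sdiff.mp hj).1) hsubmax
    refine ⟨ω', by linarith, ?_, by simpa [add_assoc] using h3, ?_⟩
    · have h5 : (L + 2) ^ m ≤ (L + 2) ^ J.card := pow_le_pow_right₀ (by linarith) hmJ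
      have h6 : y ≤ (L + 2) ^ J.card * (G * ω) :=
        mul_le_mul h5 hw.2 (by linarith [hw.1]) (by positivity)
      calc ω' ≤ L * y := h2
        _ ≤ L * ((L + 2) ^ J.card * (G * ω)) := mul_le_mul_of_nonneg_left h6 (by linarith)
        _ = L * (L + 2) ^ J.card * G * ω := by ring
    · intro j hj
      by_cases hjA : j ∈ A
      · have h5 := hs.supp q hq j (fun h => (Finset.mem_sdiff.mp h).2 hjA)
        have h6 := hup j hj
        have h7 := hlow j hjA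
        simp only [ind, hjA, Pi.add_apply, if_true, h5, add_zero]
        rw [abs_le]
        constructor <;> linarith
      · have h5 := h4 j (Finset.mem_sdiff.mpr ⟨hj, hjA⟩)
        simpa [ind, hjA] using h5

end Setup

theorem dot_add_ind (w u : D → ℝ) (A : Finset D) (β : ℝ) :
    (w + ind A β) ⬝ᵥ u = w ⬝ᵥ u + β * ∑ j ∈ A, u j := by
  rw [add_dotProduct]
  congr 1
  exact sum_ind_mul A β u

theorem step (J : Finset D) (hJ : J.Nonempty) (V : Finset (D → ℝ)) (Γ : ℝ)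
    (Vs : Finset (D → ℝ)) (L : ℝ) (hL : 1 ≤ L)
    (IH : ∀ J', J' ⊂ J → ∀ (w : D → ℝ) (ω : ℝ) (U : Set ℝ), L ≤ ω → IsLowerSet U →
      Good Vs L w ω → ∃ 𝒞, Fam J' V Γ L w ω U 𝒞) :
    ∃ (V' : Finset (D → ℝ)) (Λ : ℝ), 1 ≤ Λ ∧ ∀ (w : D → ℝ) (ω : ℝ) (U : Set ℝ), Λ ≤ ω →
      IsLowerSet U → Good V' Λ w ω → ∃ 𝒞, Fam J V Γ Λ w ω U 𝒞 := by
  classical
  have hpow : 1 ≤ (L + 2) ^ J.card := one_le_pow₀ (by linarith)
  have hΓ : 1 ≤ L * (L + 2) ^ J.card := by nlinarith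
  obtain ⟨V', G, hG, hR⟩ := rounding
    ((Vs ×ˢ J.powerset).image (fun x => (x.1, ∑ j ∈ x.2, x.1 j))) (L * (L + 2) ^ J.card) hΓ
  have hN : (0 : ℝ) ≤ J.card := Nat.cast_nonneg _
  set K : ℝ := 2 * (J.card + 1 + (2 * G + 3) * (1 + 2 * J.card)) with hK
  have hK0 : 0 ≤ K := by positivity
  have hG2 : 1 ≤ G ^ 2 := one_le_pow₀ hG
  have hP : L ≤ L * (L + 2) ^ J.card * G := by nlinarith
  refine ⟨V', G ^ 2 + L * (L + 2) ^ J.card * G + K, by linarith, ?_⟩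
  intro w ω U hω hU hgood
  have hω1 : 1 ≤ ω := by linarith
  obtain ⟨𝒜, h1, h2, h3⟩ := hR w ω hω1 (hgood.mono le_rfl (by linarith) (by linarith))
  have hsub : ∀ b ∈ 𝒜, ∀ A ⊆ J, A.Nonempty → ∃ 𝒞,
      Fam (J \ A) V Γ L (w + ind A b.1) ((L + 2) ^ (A.card - 1) * b.2) (Set.Iic (b.1 - 1)) 𝒞 := by
    intro b hb A hA hAn
    obtain ⟨h4, h5, h6⟩ := h1 b hb
    have h7 : 1 ≤ (L + 2) ^ (A.card - 1) := one_le_pow₀ (by linarith)
    have h8 : (L + 2) ^ (A.card - 1) ≤ (L + 2) ^ J.card :=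
      pow_le_pow_right₀ (by linarith) (by have := Finset.card_le_card hA; omega)
    apply IH (J \ A) (Finset.sdiff_ssubset hA hAn) _ _ _ (by nlinarith) (isLowerSet_Iic _)
    intro u hu
    rw [dot_add_ind]
    have hmem : (u, ∑ j ∈ A, u j) ∈
        (Vs ×ˢ J.powerset).image (fun x => (x.1, ∑ j ∈ x.2, x.1 j)) :=
      Finset.mem_image.mpr ⟨(u, A), Finset.mem_product.mpr ⟨hu, Finset.mem_powerset.mpr hA⟩, rfl⟩
    rcases h6 _ hmem with h9 | h9
    · exact Or.inl h9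
    · right
      refine le_trans ?_ h9
      have h10 : (L + 2) ^ (A.card - 1) * b.2 ≤ (L + 2) ^ J.card * b.2 :=
        mul_le_mul_of_nonneg_right h8 (by linarith)
      calc L * ((L + 2) ^ (A.card - 1) * b.2) ≤ L * ((L + 2) ^ J.card * b.2) :=
            mul_le_mul_of_nonneg_left h10 (by linarith)
        _ = L * (L + 2) ^ J.card * b.2 := by ring
  choose! Cs hCs using hsub
  have S : Setup J V Γ L G w ω U 𝒜 Cs :=
    ⟨hJ, hL, hG, by linarith, hU, fun b hb => ⟨(h1 b hb).1, (h1 b hb).2.1⟩, h2, h3, hCs⟩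
  exact ⟨_, S.fam.mono (by linarith) (by linarith) hU⟩

theorem exists_fam (V : Finset (D → ℝ)) (Γ : ℝ) (J : Finset D) :
    ∃ (V' : Finset (D → ℝ)) (Λ : ℝ), 1 ≤ Λ ∧ ∀ (w : D → ℝ) (ω : ℝ) (U : Set ℝ), Λ ≤ ω →
      IsLowerSet U → Good V' Λ w ω → ∃ 𝒞, Fam J V Γ Λ w ω U 𝒞 := by
  classical
  induction J using Finset.strongInduction with
  | H J ih =>
  rcases J.eq_empty_or_nonempty with rfl | hJ
  · refine ⟨V, max Γ 1, le_max_right _ _, ?_⟩
    intro w ω U hω hU hgood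
    have hω1 : 1 ≤ ω := le_trans (le_max_right _ _) hω
    have hm : 1 ≤ max Γ 1 := le_max_right _ _
    refine ⟨{(0, 0)}, ?_, ?_, ?_, ?_, ?_, ?_⟩
    · rintro p rfl j _; rfl
    · intro p _ j hj; simp at hj
    · rintro p rfl; exact le_rfl
    · intro p _ j hj; simp at hj
    · intro τ _
      refine ⟨τ, 0, ?_, by simp only [sub_self, abs_zero]; positivity, by simp⟩
      have : ind (∅ : Finset D) τ = 0 := by ext j; simp [ind]
      rw [this]; rfl
    · rintro X _ p rfl ε _ _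
      refine ⟨ω, le_rfl, by nlinarith, ?_, by simp⟩
      simpa using hgood.mono le_rfl (le_max_left _ _) (by linarith)
  · choose! Vf Lf hLf hf using ih
    have hnn : ∀ J' ∈ J.ssubsets, 0 ≤ Lf J' := fun J' hJ' =>
      le_trans zero_le_one (hLf J' (Finset.mem_ssubsets.mp hJ'))
    have hsum : 0 ≤ ∑ J' ∈ J.ssubsets, Lf J' := Finset.sum_nonneg hnn
    apply step J hJ V Γ (J.ssubsets.biUnion Vf) (1 + ∑ J' ∈ J.ssubsets, Lf J') (by linarith)
    intro J' hJ' w ω U hω hU hgood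
    have hmem : J' ∈ J.ssubsets := Finset.mem_ssubsets.mpr hJ'
    have hle : Lf J' ≤ 1 + ∑ J' ∈ J.ssubsets, Lf J' := by
      have := Finset.single_le_sum hnn hmem
      linarith
    have hω0 : 0 ≤ ω := by linarith
    obtain ⟨𝒞, h𝒞⟩ := hf J' hJ' w ω U (by linarith) hU
      (hgood.mono (Finset.subset_biUnion_of_mem Vf hmem) hle hω0)
    exact ⟨𝒞, h𝒞.mono hle hω0 hU⟩

end Vale.Agent.P072
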