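import Vale.Agent.P072.Key

/-! The convex Lyapunov function and its monotonicity along trajectories. -/

namespace Vale.Agent.P072

open Finset Real Set

variable {D : Type*} [Fintype D] [DecidableEq D]

/-- `z` is a price vector supported on `J`, close to `X` on `J` and sign compatible with `X`. -/
def Compat (J : Finset D) (V : Finset (D → ℝ)) (δ ρ : ℝ) (z X : D → ℝ) : Prop :=
  (∀ j ∈ J, |X j - z j| ≤ ρ) ∧ ∀ v ∈ V, 0 < z ⬝ᵥ v → δ ≤ ∑ j ∈ J, X j * v j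

structure Lyap (J : Finset D) (V : Finset (D → ℝ)) (δ ρ : ℝ) (𝒞 : Set ((D → ℝ) × ℝ)) : Prop where
  rho : 1 ≤ ρ
  supp : ∀ p ∈ 𝒞, ∀ j, j ∉ J → p.1 j = 0
  nonneg : ∀ p ∈ 𝒞, 0 ≤ p.2
  cost : ∀ p ∈ 𝒞, ∀ j ∈ J, exp (p.1 j - ρ) ≤ p.2
  flat : ∀ τ : ℝ, ∃ β c : ℝ, (ind J β, c) ∈ 𝒞 ∧ |τ - β| ≤ ρ ∧ c ≤ J.card * exp τ
  near : ∀ X : D → ℝ, ∀ p ∈ 𝒞, ∀ ε : ℝ,
    (∀ j ∈ J, 2 * ε ≤ exp (X j)) → (∀ q ∈ 𝒞, val X q ≤ val X p + ε) →
    ∀ X' : D → ℝ, (∀ j, |X' j - X j| ≤ 1) → Compat J V δ ρ p.1 X'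

/-- A common bound for the `ℓ¹` norms of the vectors of `V`. -/
noncomputable def size (V : Finset (D → ℝ)) : ℝ := ∑ v ∈ V, ∑ j, |v j|

omit [DecidableEq D] in
theorem size_nonneg (V : Finset (D → ℝ)) : 0 ≤ size V :=
  Finset.sum_nonneg fun _ _ => Finset.sum_nonneg fun _ _ => abs_nonneg _

omit [DecidableEq D] in
theorem abs_sum_le_size {V : Finset (D → ℝ)} {v : D → ℝ} (hv : v ∈ V) (J : Finset D)
    (y : D → ℝ) {B : ℝ} (hB : 0 ≤ B) (hy : ∀ j ∈ J, |y j| ≤ B) :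
    |∑ j ∈ J, y j * v j| ≤ B * size V := by
  have h1 : ∑ j, |v j| ≤ size V :=
    Finset.single_le_sum (f := fun v : D → ℝ => ∑ j, |v j|)
      (fun _ _ => Finset.sum_nonneg fun _ _ => abs_nonneg _) hv
  have h2 : ∑ j ∈ J, |v j| ≤ ∑ j, |v j| :=
    Finset.sum_le_sum_of_subset_of_nonneg (Finset.subset_univ J) fun _ _ _ => abs_nonneg _
  calc |∑ j ∈ J, y j * v j| ≤ ∑ j ∈ J, |y j * v j| := Finset.abs_sum_le_sum_abs _ _
    _ ≤ ∑ j ∈ J, B * |v j| := by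
        apply Finset.sum_le_sum
        intro j hj
        rw [abs_mul]
        exact mul_le_mul_of_nonneg_right (hy j hj) (abs_nonneg _)
    _ = B * ∑ j ∈ J, |v j| := by rw [Finset.mul_sum]
    _ ≤ B * size V := mul_le_mul_of_nonneg_left (le_trans h2 h1) hB

omit [DecidableEq D] in
theorem dot_eq_sum_supp {J : Finset D} {z : D → ℝ} (hz : ∀ j, j ∉ J → z j = 0) (v : D → ℝ) :
    z ⬝ᵥ v = ∑ j ∈ J, z j * v j := by
  rw [dotProduct]
  symm
  apply Finset.sum_subset (Finset.subset_univ J)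
  intro j _ hj
  simp [hz j hj]

theorem exists_lyap (J : Finset D) (V : Finset (D → ℝ)) (δ : ℝ) :
    ∃ ρ 𝒞, Lyap J V δ ρ 𝒞 := by
  obtain ⟨V', Λ, hΛ, h⟩ := exists_fam V (3 * size V + 1) J
  have hs := size_nonneg V
  set ω : ℝ := max Λ δ with hω
  have h1 : Λ ≤ ω := le_max_left _ _
  have h2 : δ ≤ ω := le_max_right _ _
  obtain ⟨𝒞, h𝒞⟩ := h 0 ω Set.univ h1 isLowerSet_univ (fun u _ => Or.inl (zero_dotProduct u))
  have h3 : 1 ≤ Λ * ω := by nlinarith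
  refine ⟨3 * (Λ * ω), 𝒞, by linarith, h𝒞.supp, h𝒞.nonneg, ?_, ?_, ?_⟩
  · intro p hp j hj
    exact le_trans (exp_le_exp.mpr (by linarith)) (h𝒞.cost p hp j hj)
  · intro τ
    obtain ⟨β, c, h4, h5, h6⟩ := h𝒞.flat τ (Set.mem_univ _)
    exact ⟨β, c, h4, by linarith, h6⟩
  · intro X p hp ε hε hmax X' hX'
    obtain ⟨ω', h4, h5, h6, h7⟩ := h𝒞.near X (fun _ _ => Set.mem_univ _) p hp ε hε hmax
    have h8 : ∀ j ∈ J, |X' j - p.1 j| ≤ 3 * ω' := by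
      intro j hj
      have h9 := abs_le.mp (h7 j hj)
      have h10 := abs_le.mp (hX' j)
      rw [abs_le]
      constructor <;> linarith
    refine ⟨fun j hj => le_trans (h8 j hj) (by linarith), ?_⟩
    intro v hv hpos
    rcases h6 v hv with h9 | h9
    · rw [zero_add] at h9; linarith
    · rw [zero_add, abs_of_pos hpos, dot_eq_sum_supp (h𝒞.supp p hp)] at h9
      have h10 := abs_sum_le_size hv J (fun j => X' j - p.1 j) (by linarith) h8
      have h11 : ∑ j ∈ J, X' j * v j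
          = ∑ j ∈ J, p.1 j * v j + ∑ j ∈ J, (X' j - p.1 j) * v j := by
        rw [← Finset.sum_add_distrib]
        apply Finset.sum_congr rfl
        intro j _
        ring
      have h12 := (abs_le.mp h10).1
      rw [h11]
      nlinarith

/-- The Lyapunov function attached to a family of affine functions. -/
noncomputable def Phi (𝒞 : Set ((D → ℝ) × ℝ)) (x : D → ℝ) : ℝ :=
  sSup ((fun p : (D → ℝ) × ℝ => p.1 ⬝ᵥ x - p.2) '' 𝒞)

namespace Lyap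

variable {J : Finset D} {V : Finset (D → ℝ)} {δ ρ : ℝ} {𝒞 : Set ((D → ℝ) × ℝ)}

theorem elem_le (h : Lyap J V δ ρ 𝒞) (hJ : J.Nonempty) {x : D → ℝ} (hx : ∀ j, 0 < x j)
    {p : (D → ℝ) × ℝ} (hp : p ∈ 𝒞) :
    p.1 ⬝ᵥ x - p.2 ≤ (∑ j ∈ J, x j) * (log (∑ j ∈ J, x j) + ρ - 1) := by
  obtain ⟨i, hi, hmax⟩ := Finset.exists_max_image J p.1 hJ
  set s := ∑ j ∈ J, x j with hs
  have hspos : 0 < s := Finset.sum_pos (fun j _ => hx j) hJ
  have h1 : p.1 ⬝ᵥ x ≤ p.1 i * s := by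
    rw [dot_eq_sum_supp (h.supp p hp), hs, Finset.mul_sum]
    exact Finset.sum_le_sum fun j hj => mul_le_mul_of_nonneg_right (hmax j hj) (hx j).le
  have h2 := h.cost p hp i hi
  have h3 : exp (p.1 i - ρ) = s * exp (p.1 i - ρ - log s) := by
    rw [exp_sub (p.1 i - ρ), exp_log hspos]; field_simp
  have h4 : p.1 i - ρ - log s + 1 ≤ exp (p.1 i - ρ - log s) := add_one_le_exp _
  have h5 := mul_le_mul_of_nonneg_left h4 hspos.le
  nlinarith

theorem nonempty (h : Lyap J V δ ρ 𝒞) : 𝒞.Nonempty := by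
  obtain ⟨β, c, h1, _⟩ := h.flat 0
  exact ⟨_, h1⟩

theorem bdd (h : Lyap J V δ ρ 𝒞) (hJ : J.Nonempty) {x : D → ℝ} (hx : ∀ j, 0 < x j) :
    BddAbove ((fun p : (D → ℝ) × ℝ => p.1 ⬝ᵥ x - p.2) '' 𝒞) := by
  refine ⟨(∑ j ∈ J, x j) * (log (∑ j ∈ J, x j) + ρ - 1), ?_⟩
  rintro _ ⟨p, hp, rfl⟩
  exact h.elem_le hJ hx hp

theorem le_phi (h : Lyap J V δ ρ 𝒞) (hJ : J.Nonempty) {x : D → ℝ} (hx : ∀ j, 0 < x j)
    {p : (D → ℝ) × ℝ} (hp : p ∈ 𝒞) : p.1 ⬝ᵥ x - p.2 ≤ Phi 𝒞 x :=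
  le_csSup (h.bdd hJ hx) ⟨p, hp, rfl⟩

theorem phi_le (h : Lyap J V δ ρ 𝒞) (hJ : J.Nonempty) {x : D → ℝ} (hx : ∀ j, 0 < x j) :
    Phi 𝒞 x ≤ (∑ j ∈ J, x j) * (log (∑ j ∈ J, x j) + ρ - 1) := by
  apply csSup_le (h.nonempty.image _)
  rintro _ ⟨p, hp, rfl⟩
  exact h.elem_le hJ hx hp

theorem flat_le (h : Lyap J V δ ρ 𝒞) (hJ : J.Nonempty) {x : D → ℝ} (hx : ∀ j, 0 < x j) (τ : ℝ) :
    (τ - ρ) * (∑ j ∈ J, x j) - J.card * exp τ ≤ Phi 𝒞 x := by
  obtain ⟨β, c, h1, h2, h3⟩ := h.flat τ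
  have h4 := h.le_phi hJ hx h1
  have h5 : ind J β ⬝ᵥ x = β * ∑ j ∈ J, x j := sum_ind_mul J β x
  simp only [h5] at h4
  have h6 : 0 ≤ ∑ j ∈ J, x j := Finset.sum_nonneg fun j _ => (hx j).le
  have h7 := (abs_le.mp h2).2
  nlinarith

end Lyap

/-- An abstract trajectory of the differential inclusion `x' ∈ F x` on `[a, b]`. -/
def Traj (F : (D → ℝ) → Set (D → ℝ)) (x : ℝ → D → ℝ) (a b : ℝ) : Prop :=
  ContinuousOn x (Icc a b) ∧ ∀ s t, a ≤ s → s ≤ t → t ≤ b → ∀ (z : D → ℝ) (γ : ℝ),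
    (∀ r ∈ Icc s t, ∀ g ∈ F (x r), z ⬝ᵥ g ≤ γ) → z ⬝ᵥ x t - z ⬝ᵥ x s ≤ γ * (t - s)

omit [DecidableEq D] in
theorem Traj.mono {F : (D → ℝ) → Set (D → ℝ)} {x : ℝ → D → ℝ} {a b a' b' : ℝ}
    (h : Traj F x a b) (ha : a ≤ a') (hb : b' ≤ b) : Traj F x a' b' :=
  ⟨h.1.mono (Icc_subset_Icc ha hb), fun s t h1 h2 h3 => h.2 s t (ha.trans h1) h2 (h3.trans hb)⟩

omit [DecidableEq D] in
theorem exists_pos_le (f : D → ℝ) (hf : ∀ j, 0 < f j) : ∃ m, 0 < m ∧ ∀ j, m ≤ f j := by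
  rcases isEmpty_or_nonempty D with h | h
  · exact ⟨1, one_pos, fun j => (IsEmpty.false j).elim⟩
  · obtain ⟨i, _, hi⟩ := Finset.exists_min_image Finset.univ f Finset.univ_nonempty
    exact ⟨f i, hf i, fun j => hi j (Finset.mem_univ j)⟩

theorem phi_mono {J : Finset D} {V : Finset (D → ℝ)} {δ ρ : ℝ} {𝒞 : Set ((D → ℝ) × ℝ)}
    (h : Lyap J V δ ρ 𝒞) (hJ : J.Nonempty) {F : (D → ℝ) → Set (D → ℝ)} {x : ℝ → D → ℝ}
    {a b : ℝ} (hab : a ≤ b) (hx : Traj F x a b) (hpos : ∀ t ∈ Icc a b, ∀ j, 0 < x t j) {γ : ℝ}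
    (H : ∀ t ∈ Icc a b, ∀ z : D → ℝ, (∀ j, j ∉ J → z j = 0) →
      Compat J V δ ρ z (fun j => log (x t j)) → ∀ g ∈ F (x t), z ⬝ᵥ g ≤ γ) :
    Phi 𝒞 (x b) ≤ Phi 𝒞 (x a) + γ * (b - a) := by
  have hcont : ContinuousOn (fun t => fun j => log (x t j)) (Icc a b) := by
    rw [continuousOn_pi]
    intro j
    exact ContinuousOn.log ((continuousOn_pi.mp hx.1) j) fun t ht => (hpos t ht j).ne'
  have huc := isCompact_Icc.uniformContinuousOn_of_continuous hcont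
  obtain ⟨η, hη, hηs⟩ := Metric.uniformContinuousOn_iff_le.mp huc 1 one_pos
  have hstep : ∀ s t, a ≤ s → s ≤ t → t ≤ b → t - s ≤ η →
      Phi 𝒞 (x t) ≤ Phi 𝒞 (x s) + γ * (t - s) := by
    intro s t h1 h2 h3 h4
    have ht : t ∈ Icc a b := ⟨h1.trans h2, h3⟩
    have hs : s ∈ Icc a b := ⟨h1, h2.trans h3⟩
    obtain ⟨m, hm, hmle⟩ := exists_pos_le (x t) (hpos t ht)
    apply le_of_forall_pos_le_add
    intro ε hε
    have hε' : 0 < min ε (m / 2) := lt_min hε (by linarith)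
    obtain ⟨_, ⟨p, hp, rfl⟩, hlt⟩ := exists_lt_of_lt_csSup (h.nonempty.image
      (fun p : (D → ℝ) × ℝ => p.1 ⬝ᵥ x t - p.2))
      (show Phi 𝒞 (x t) - min ε (m / 2) < Phi 𝒞 (x t) by linarith)
    have hval : ∀ q : (D → ℝ) × ℝ, val (fun j => log (x t j)) q = q.1 ⬝ᵥ x t - q.2 := by
      intro q
      simp only [val, dotProduct]
      congr 1
      exact Finset.sum_congr rfl fun j _ => by rw [exp_log (hpos t ht j)]
    have hnear := h.near (fun j => log (x t j)) p hp (min ε (m / 2))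
      (fun j _ => by
        rw [exp_log (hpos t ht j)]
        have := min_le_right ε (m / 2)
        linarith [hmle j])
      (fun q hq => by
        rw [hval, hval]
        have := h.le_phi hJ (hpos t ht) hq
        simp only at hlt
        linarith)
    have hdec := hx.2 s t h1 h2 h3 p.1 γ (fun r hr g hg => by
      have hr' : r ∈ Icc a b := ⟨h1.trans hr.1, hr.2.trans h3⟩
      refine H r hr' p.1 (h.supp p hp) (hnear _ fun j => ?_) g hg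
      have hd := hηs r hr' t ht (by
        rw [Real.dist_eq, abs_le]
        constructor <;> linarith [hr.1, hr.2])
      have := (dist_pi_le_iff zero_le_one).mp hd j
      rwa [Real.dist_eq] at this)
    have h5 := h.le_phi hJ (hpos s hs) hp
    have h6 := min_le_left ε (m / 2)
    simp only at hlt
    linarith
  have hind : ∀ n : ℕ, ∀ t, a ≤ t → t ≤ b → t ≤ a + n * η →
      Phi 𝒞 (x t) ≤ Phi 𝒞 (x a) + γ * (t - a) := by
    intro n
    induction n with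
    | zero =>
      intro t h1 _ h3
      have : t = a := by simp at h3; linarith
      rw [this]; simp
    | succ n ih =>
      intro t h1 h2 h3
      push_cast at h3
      rcases le_total t (a + η) with h4 | h4
      · exact hstep a t le_rfl h1 h2 (by linarith)
      · have h5 := ih (t - η) (by linarith) (by linarith) (by linarith)
        have h6 := hstep (t - η) t (by linarith) (by linarith) h2 (by linarith)
        nlinarith
  obtain ⟨n, hn⟩ := exists_nat_ge ((b - a) / η)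
  apply hind n b hab le_rfl
  rw [div_le_iff₀ hη] at hn
  linarith

end Vale.Agent.P072
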