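import Mathlib

/-! Existence and uniqueness for integral equations with a bounded Lipschitz right hand side
that is only measurable in time. -/

namespace Vale.Agent.P072

open Real Set MeasureTheory intervalIntegral Filter Topology

variable {E : Type*} [NormedAddCommGroup E] [NormedSpace ℝ E] [CompleteSpace E]

omit [CompleteSpace E] in
theorem picard_estimate {f g : ℝ → E} {L σ t : ℝ} (ht : 0 ≤ t)
    (hf : IntervalIntegrable f volume 0 t) (hg : IntervalIntegrable g volume 0 t) (hσ : 0 ≤ σ)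
    (h : ∀ s ∈ Icc 0 t, ‖f s - g s‖ ≤ L * (σ * exp (2 * L * s))) :
    ‖(∫ s in (0 : ℝ)..t, f s) - ∫ s in (0 : ℝ)..t, g s‖ ≤ σ / 2 * exp (2 * L * t) := by
  rw [← integral_sub hf hg]
  have hc : Continuous fun s : ℝ => L * (σ * exp (2 * L * s)) := by fun_prop
  refine le_trans (norm_integral_le_of_norm_le ht
    (Eventually.of_forall fun s hs => h s (Ioc_subset_Icc_self hs))
    (hc.intervalIntegrable _ _)) ?_
  have hd : ∀ s ∈ uIcc 0 t, HasDerivAt (fun s => σ / 2 * exp (2 * L * s))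
      (L * (σ * exp (2 * L * s))) s := by
    intro s _
    have h1 : HasDerivAt (fun s => 2 * L * s) (2 * L) s := by
      simpa using (hasDerivAt_id s).const_mul (2 * L)
    exact (h1.exp.const_mul (σ / 2)).congr_deriv (by ring)
  rw [integral_eq_sub_of_hasDerivAt hd (hc.intervalIntegrable _ _)]
  simp only [mul_zero, exp_zero, mul_one]
  linarith

omit [CompleteSpace E] in
theorem picard_unique {g : ℝ → E → E} {L T : ℝ} (hL : 0 ≤ L) {S : Set E}
    (hlip : ∀ t ∈ Icc 0 T, ∀ x ∈ S, ∀ y ∈ S, ‖g t x - g t y‖ ≤ L * ‖x - y‖) {x0 : E} {u v : ℝ → E}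
    (hu : ContinuousOn u (Icc 0 T)) (hv : ContinuousOn v (Icc 0 T))
    (huS : ∀ t ∈ Icc 0 T, u t ∈ S) (hvS : ∀ t ∈ Icc 0 T, v t ∈ S)
    (hui : IntegrableOn (fun s => g s (u s)) (Icc 0 T))
    (hvi : IntegrableOn (fun s => g s (v s)) (Icc 0 T))
    (hue : ∀ t ∈ Icc 0 T, u t = x0 + ∫ s in (0 : ℝ)..t, g s (u s))
    (hve : ∀ t ∈ Icc 0 T, v t = x0 + ∫ s in (0 : ℝ)..t, g s (v s)) :
    EqOn u v (Icc 0 T) := by
  intro t ht
  have hc : ContinuousOn (fun s => ‖u s - v s‖ * exp (-(2 * L * s))) (Icc 0 T) :=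
    (hu.sub hv).norm.mul (by fun_prop)
  obtain ⟨t1, ht1, hmax⟩ := isCompact_Icc.exists_isMaxOn ⟨t, ht⟩ hc
  set σ := ‖u t1 - v t1‖ * exp (-(2 * L * t1)) with hσ
  have hσ0 : 0 ≤ σ := by positivity
  have hle : ∀ s ∈ Icc 0 T, ‖u s - v s‖ ≤ σ * exp (2 * L * s) := by
    intro s hs
    have h1 : ‖u s - v s‖ * exp (-(2 * L * s)) ≤ σ := hmax hs
    have h2 := mul_le_mul_of_nonneg_right h1 (exp_pos (2 * L * s)).le
    rwa [mul_assoc, ← exp_add, neg_add_cancel, exp_zero, mul_one] at h2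
  have hsub : Icc 0 t1 ⊆ Icc 0 T := Icc_subset_Icc le_rfl ht1.2
  have hest := picard_estimate (L := L) ht1.1
    ((intervalIntegrable_iff_integrableOn_Icc_of_le ht1.1).mpr (hui.mono_set hsub))
    ((intervalIntegrable_iff_integrableOn_Icc_of_le ht1.1).mpr (hvi.mono_set hsub)) hσ0
    (fun s hs => le_trans (hlip s (hsub hs) _ (huS s (hsub hs)) _ (hvS s (hsub hs)))
      (mul_le_mul_of_nonneg_left (hle s (hsub hs)) hL))
  have h3 : u t1 - v t1 = (∫ s in (0 : ℝ)..t1, g s (u s)) - ∫ s in (0 : ℝ)..t1, g s (v s) := by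
    conv_lhs => rw [hue t1 ht1, hve t1 ht1]
    abel
  rw [← h3] at hest
  have h4 : ‖u t1 - v t1‖ = σ * exp (2 * L * t1) := by
    rw [hσ, mul_assoc, ← exp_add, neg_add_cancel, exp_zero, mul_one]
  have h5 := exp_pos (2 * L * t1)
  have h6 : σ ≤ 0 := by nlinarith
  have h7 := hle t ht
  have h8 : σ = 0 := le_antisymm h6 hσ0
  rw [h8, zero_mul] at h7
  exact sub_eq_zero.mp (norm_le_zero_iff.mp h7)

omit [CompleteSpace E] in
theorem continuous_primitive_max {f : ℝ → E} (hf : ∀ T, IntegrableOn f (Icc 0 T)) :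
    Continuous fun t : ℝ => ∫ s in (0 : ℝ)..(max t 0), f s := by
  rw [continuous_iff_continuousAt]
  intro t0
  have hT : (0 : ℝ) ≤ |t0| + 1 := by positivity
  have h1 : ContinuousOn (fun t => ∫ s in (0 : ℝ)..t, f s) (uIcc 0 (|t0| + 1)) :=
    continuousOn_primitive_interval (by rw [uIcc_of_le hT]; exact hf _)
  rw [uIcc_of_le hT] at h1
  have h2 : ContinuousOn (fun t : ℝ => ∫ s in (0 : ℝ)..(max t 0), f s) (Iio (|t0| + 1)) :=
    h1.comp (f := fun t : ℝ => max t 0) (by fun_prop)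
      fun t ht => ⟨le_max_right _ _, max_le (le_of_lt ht) hT⟩
  exact h2.continuousAt (Iio_mem_nhds (by linarith [le_abs_self t0]))

theorem picard_exists {g : ℝ → E → E} {L B : ℝ} (hL : 0 < L)
    (hint : ∀ u : ℝ → E, Continuous u → ∀ T, IntegrableOn (fun s => g s (u s)) (Icc 0 T))
    (hlip : ∀ t, 0 ≤ t → ∀ x y, ‖g t x - g t y‖ ≤ L * ‖x - y‖)
    (hbd : ∀ t, 0 ≤ t → ∀ x, ‖g t x‖ ≤ B) (x0 : E) :
    ∃ x : ℝ → E, Continuous x ∧ ∀ t, 0 ≤ t → x t = x0 + ∫ s in (0 : ℝ)..t, g s (x s) := by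
  have hB : 0 ≤ B := le_trans (norm_nonneg _) (hbd 0 le_rfl x0)
  let lift : (BoundedContinuousFunction ℝ E) → ℝ → E := fun u t => exp (2 * L * t) • u t
  have hlift : ∀ u, Continuous (lift u) := fun u => by
    simp only [lift]; fun_prop
  let P : (BoundedContinuousFunction ℝ E) → ℝ → E := fun u t =>
    exp (-(2 * L * max t 0)) • (x0 + ∫ s in (0 : ℝ)..(max t 0), g s (lift u s))
  have hPc : ∀ u, Continuous (P u) := fun u => by
    have := continuous_primitive_max (hint _ (hlift u))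
    simp only [P]; fun_prop
  have hPb : ∀ u t, ‖P u t‖ ≤ ‖x0‖ + B / (2 * L) := by
    intro u t
    set τ := max t 0 with hτ
    have hτ0 : 0 ≤ τ := le_max_right _ _
    have h1 : ‖∫ s in (0 : ℝ)..τ, g s (lift u s)‖ ≤ B * |τ - 0| :=
      norm_integral_le_of_norm_le_const fun s hs => by
        rw [uIoc_of_le hτ0] at hs
        exact hbd s hs.1.le _
    rw [sub_zero, abs_of_nonneg hτ0] at h1
    have h2 : exp (-(2 * L * τ)) ≤ 1 := exp_le_one_iff.mpr (by nlinarith)
    have h3 : exp (-(2 * L * τ)) * (2 * L * τ) ≤ 1 := by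
      have h4 : 2 * L * τ + 1 ≤ exp (2 * L * τ) := add_one_le_exp _
      have h5 : exp (-(2 * L * τ)) * exp (2 * L * τ) = 1 := by
        rw [← exp_add, neg_add_cancel, exp_zero]
      nlinarith [exp_pos (-(2 * L * τ))]
    have h6 : exp (-(2 * L * τ)) * (B * τ) ≤ B / (2 * L) := by
      rw [le_div_iff₀ (by linarith)]
      nlinarith
    simp only [P]
    rw [norm_smul, Real.norm_eq_abs, abs_of_pos (exp_pos _)]
    have h7 := norm_add_le x0 (∫ s in (0 : ℝ)..τ, g s (lift u s))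
    have h8 := exp_pos (-(2 * L * τ))
    nlinarith [norm_nonneg x0]
  let Q : (BoundedContinuousFunction ℝ E) → (BoundedContinuousFunction ℝ E) := fun u =>
    BoundedContinuousFunction.ofNormedAddCommGroup (P u) (hPc u) _ (hPb u)
  have hQ : ContractingWith (1 / 2) Q := by
    refine ⟨by norm_num, LipschitzWith.of_dist_le_mul fun u v => ?_⟩
    rw [BoundedContinuousFunction.dist_le (by positivity)]
    intro t
    set τ := max t 0 with hτ
    have hτ0 : 0 ≤ τ := le_max_right _ _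
    have hest := picard_estimate (L := L) (σ := dist u v) hτ0
      ((intervalIntegrable_iff_integrableOn_Icc_of_le hτ0).mpr (hint _ (hlift u) τ))
      ((intervalIntegrable_iff_integrableOn_Icc_of_le hτ0).mpr (hint _ (hlift v) τ)) dist_nonneg
      (fun s hs => le_trans (hlip s hs.1 _ _) (mul_le_mul_of_nonneg_left (by
        simp only [lift]
        rw [← smul_sub, norm_smul, Real.norm_eq_abs, abs_of_pos (exp_pos _), mul_comm,
          ← dist_eq_norm]
        exact mul_le_mul_of_nonneg_right (BoundedContinuousFunction.dist_coe_le_dist s)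
          (exp_pos _).le) hL.le))
    show dist (P u t) (P v t) ≤ _
    simp only [P]
    rw [dist_eq_norm, ← smul_sub, norm_smul, Real.norm_eq_abs, abs_of_pos (exp_pos _),
      add_sub_add_left_eq_sub]
    have h5 : exp (-(2 * L * τ)) * exp (2 * L * τ) = 1 := by
      rw [← exp_add, neg_add_cancel, exp_zero]
    have h6 := mul_le_mul_of_nonneg_left hest (exp_pos (-(2 * L * τ))).le
    have h7 : exp (-(2 * L * τ)) * (dist u v / 2 * exp (2 * L * τ)) = dist u v / 2 := by
      calc _ = dist u v / 2 * (exp (-(2 * L * τ)) * exp (2 * L * τ)) := by ring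
        _ = _ := by rw [h5, mul_one]
    push_cast
    linarith
  obtain ⟨u, hu⟩ : ∃ u, Q u = u := ⟨_, hQ.fixedPoint_isFixedPt⟩
  refine ⟨lift u, hlift u, fun t ht => ?_⟩
  have h1 : u t = P u t := by
    conv_lhs => rw [← hu]
    rfl
  simp only [P, max_eq_left ht] at h1
  show exp (2 * L * t) • u t = _
  rw [h1, smul_smul, ← exp_add, add_neg_cancel, exp_zero, one_smul]

end Vale.Agent.P072
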