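import Vale.Agent.P072.Core
import Vale.Agent.P072.Picard

/-! Permanence for measurable rates and for constant rates. -/

namespace Vale.Agent.P072

open Finset Real Set MeasureTheory intervalIntegral Filter Topology

variable {d : ℕ}

theorem SolvesIntegralOn.mono {f : ℝ → (Fin d → ℝ) → Fin d → ℝ} {x : ℝ → Fin d → ℝ}
    {I I' : Set ℝ} (h : SolvesIntegralOn f x I) (hI : I' ⊆ I) : SolvesIntegralOn f x I' :=
  ⟨h.1.mono hI, fun t ht => h.2 t (hI ht)⟩

theorem traj_of_integral {F : (Fin d → ℝ) → Set (Fin d → ℝ)}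
    {f : ℝ → (Fin d → ℝ) → Fin d → ℝ} {x : ℝ → Fin d → ℝ} {T : ℝ}
    (h : SolvesIntegralOn f x (Icc 0 T)) (hF : ∀ t ∈ Icc 0 T, f t (x t) ∈ F (x t)) :
    Traj F x 0 T := by
  refine ⟨h.1, fun s t h1 h2 h3 z γ hz => ?_⟩
  obtain ⟨hs1, hs2⟩ := h.2 s ⟨h1, h2.trans h3⟩
  obtain ⟨ht1, ht2⟩ := h.2 t ⟨h1.trans h2, h3⟩
  have hst : IntervalIntegrable (fun r => f r (x r)) volume s t := hs1.symm.trans ht1
  have h4 : x t - x s = ∫ r in s..t, f r (x r) := by
    rw [← integral_interval_sub_left ht1 hs1]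
    conv_lhs => rw [hs2, ht2]
    abel
  let ℓ : (Fin d → ℝ) →L[ℝ] ℝ := LinearMap.toContinuousLinearMap (dotProductBilin ℝ ℝ z)
  have hℓ : ∀ u, ℓ u = z ⬝ᵥ u := fun u => rfl
  rw [← dotProduct_sub, h4, ← hℓ, ← ℓ.intervalIntegral_comp_comm hst]
  have h5 : IntervalIntegrable (fun r => ℓ (f r (x r))) volume s t :=
    ⟨ℓ.integrable_comp hst.1, ℓ.integrable_comp hst.2⟩
  calc ∫ r in s..t, ℓ (f r (x r)) ≤ ∫ _r in s..t, γ :=
        integral_mono_on h2 h5 intervalIntegrable_const fun r hr =>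
          hz r hr _ (hF r ⟨h1.trans hr.1, hr.2.trans h3⟩)
    _ = γ * (t - s) := by rw [intervalIntegral.integral_const, smul_eq_mul, mul_comm]

theorem integrableOn_massAction {R : Finset ((Fin d → ℕ) × (Fin d → ℕ))} {ε : ℝ} (hε : 0 < ε)
    {k : (Fin d → ℕ) × (Fin d → ℕ) → ℝ → ℝ} (hm : ∀ r ∈ R, Measurable (k r))
    (hk : ∀ r ∈ R, ∀ t, 0 ≤ t → k r t ∈ Icc ε ε⁻¹) {u : ℝ → Fin d → ℝ} {T : ℝ}
    (hu : ContinuousOn u (Icc 0 T)) :
    IntegrableOn (fun s => massAction R (fun r => k r s) (u s)) (Icc 0 T) := by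
  unfold massAction
  apply integrable_finsetSum
  intro r hr
  have h1 : IntegrableOn (k r) (Icc 0 T) :=
    Measure.integrableOn_of_bounded (M := ε⁻¹) measure_Icc_lt_top.ne
      (hm r hr).aestronglyMeasurable
      (ae_restrict_of_forall_mem measurableSet_Icc fun t ht => by
        have := hk r hr t ht.1
        rw [Real.norm_eq_abs, abs_of_pos (lt_of_lt_of_le hε this.1)]
        exact this.2)
  have h2 : ContinuousOn (fun s => ∏ i, u s i ^ r.1 i) (Icc 0 T) :=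
    continuousOn_finsetProd _ fun i _ => ((continuousOn_pi.mp hu) i).pow _
  exact (h1.mul_continuousOn h2 isCompact_Icc).smul_continuousOn continuousOn_const isCompact_Icc

theorem massAction_lip (R : Finset ((Fin d → ℕ) × (Fin d → ℕ))) {ε : ℝ} (hε : 0 < ε) (m M : ℝ) :
    ∃ L B : ℝ, 0 < L ∧ ∀ k : (Fin d → ℕ) × (Fin d → ℕ) → ℝ, (∀ r ∈ R, k r ∈ Icc ε ε⁻¹) →
      ∀ x ∈ Box m M, ‖massAction R k x‖ ≤ B ∧
        ∀ y ∈ Box m M, ‖massAction R k x - massAction R k y‖ ≤ L * ‖x - y‖ := by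
  have hconv : Convex ℝ (Box m M : Set (Fin d → ℝ)) := by
    have : (Box m M : Set (Fin d → ℝ)) = Set.pi Set.univ (fun _ => Icc m M) := by
      ext x; simp only [Box, Set.mem_ofPred_eq, Set.mem_pi, Set.mem_univ, Set.mem_Icc, true_imp_iff]
    rw [this]
    exact convex_pi fun _ _ => convex_Icc _ _
  have h1 : ∀ y : Fin d → ℕ, ∃ K : NNReal,
      LipschitzOnWith K (fun x : Fin d → ℝ => ∏ i, x i ^ y i) (Box m M) := fun y =>
    ContDiffOn.exists_lipschitzOnWith (n := 1) (by fun_prop) one_ne_zero hconv (isCompact_box m M)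
  have h2 : ∀ y : Fin d → ℕ, ∃ C : ℝ, ∀ x ∈ Box m M, ‖∏ i, x i ^ y i‖ ≤ C := fun y =>
    (isCompact_box m M).exists_bound_of_continuousOn (by fun_prop)
  choose K hK using h1
  choose C hC using h2
  have hεi : 0 < ε⁻¹ := inv_pos.mpr hε
  have hS : 0 ≤ ∑ r ∈ R, ε⁻¹ * K r.1 * ‖rvec r‖ := Finset.sum_nonneg fun r _ => by positivity
  refine ⟨1 + ∑ r ∈ R, ε⁻¹ * K r.1 * ‖rvec r‖, ∑ r ∈ R, ε⁻¹ * C r.1 * ‖rvec r‖, by linarith, ?_⟩
  intro k hk x hx
  have hkabs : ∀ r ∈ R, |k r| ≤ ε⁻¹ := fun r hr => by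
    rw [abs_of_pos (lt_of_lt_of_le hε (hk r hr).1)]; exact (hk r hr).2
  constructor
  · refine le_trans (norm_sum_le _ _) (Finset.sum_le_sum fun r hr => ?_)
    rw [norm_smul, norm_mul, Real.norm_eq_abs]
    exact mul_le_mul_of_nonneg_right
      (mul_le_mul (hkabs r hr) (hC r.1 x hx) (norm_nonneg _) hεi.le) (norm_nonneg _)
  · intro y hy
    unfold massAction
    rw [← Finset.sum_sub_distrib]
    refine le_trans (norm_sum_le _ _) ?_
    have h3 : ∑ r ∈ R, ‖(k r * ∏ i, x i ^ r.1 i) • rvec r - (k r * ∏ i, y i ^ r.1 i) • rvec r‖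
        ≤ ∑ r ∈ R, ε⁻¹ * K r.1 * ‖rvec r‖ * ‖x - y‖ := by
      refine Finset.sum_le_sum fun r hr => ?_
      rw [← sub_smul, ← mul_sub, norm_smul, norm_mul, Real.norm_eq_abs]
      have h4 := (hK r.1).dist_le_mul x hx y hy
      rw [dist_eq_norm, dist_eq_norm] at h4
      calc |k r| * ‖∏ i, x i ^ r.1 i - ∏ i, y i ^ r.1 i‖ * ‖rvec r‖
          ≤ ε⁻¹ * (K r.1 * ‖x - y‖) * ‖rvec r‖ :=
            mul_le_mul_of_nonneg_right (mul_le_mul (hkabs r hr) h4 (norm_nonneg _) hεi.le)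
              (norm_nonneg _)
        _ = ε⁻¹ * K r.1 * ‖rvec r‖ * ‖x - y‖ := by ring
    rw [← Finset.sum_mul] at h3
    nlinarith [norm_nonneg (x - y)]

/-- Coordinatewise projection onto a box. -/
def clamp (m M : ℝ) (x : Fin d → ℝ) : Fin d → ℝ := fun i => max m (min (x i) M)

theorem clamp_lip (m M : ℝ) (x y : Fin d → ℝ) : ‖clamp m M x - clamp m M y‖ ≤ ‖x - y‖ := by
  rw [pi_norm_le_iff_of_nonneg (norm_nonneg _)]
  intro i
  refine le_trans ?_ (norm_le_pi_norm (x - y) i)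
  have h : LipschitzWith 1 (fun s : ℝ => max m (min s M)) :=
    (LipschitzWith.id.min_const M).const_max m
  have := h.dist_le_mul (x i) (y i)
  simpa [clamp, dist_eq_norm] using this

theorem continuous_clamp (m M : ℝ) : Continuous (clamp (d := d) m M) := by
  unfold clamp; fun_prop

theorem clamp_eq {m M : ℝ} {x : Fin d → ℝ} (hx : x ∈ OBox m M) : clamp m M x = x := by
  ext i
  simp only [clamp]
  rw [min_eq_left (hx i).2.le, max_eq_right (hx i).1.le]

theorem strong_permanence {R : Finset ((Fin d → ℕ) × (Fin d → ℕ))} (hR : WeaklyReversible R)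
    {ε : ℝ} (hε : 0 < ε) {c : Fin d → ℝ} (hc : ∀ i, 0 < c i) :
    ∃ K : Set (Fin d → ℝ), IsCompact K ∧ K ⊆ posClass R c ∧
      ∀ k : (Fin d → ℕ) × (Fin d → ℕ) → ℝ → ℝ, (∀ r ∈ R, Measurable (k r)) →
        (∀ r ∈ R, ∀ t, 0 ≤ t → k r t ∈ Icc ε ε⁻¹) →
        PermanentWith (fun t => massAction R fun r => k r t) (posClass R c) K := by
  obtain ⟨K, hK1, hK2, hK3⟩ := abstract_permanence hR hε hc
  refine ⟨K, hK1, hK2, fun k hm hk => ?_⟩
  have htraj : ∀ (x : ℝ → Fin d → ℝ) (T : ℝ),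
      SolvesIntegralOn (fun t => massAction R fun r => k r t) x (Icc 0 T) →
      Traj (fieldSet R ε) x 0 T := fun x T h =>
    traj_of_integral h fun t ht => ⟨_, fun r hr => hk r hr t ht.1, rfl⟩
  refine ⟨fun x0 hx0 => ?_, fun x hx0 hx =>
    (hK3 x (fun T _ => htraj x T (hx.mono Icc_subset_Ici_self)) hx0).2⟩
  obtain ⟨m, M, hm0, hstay⟩ := stay_box hR hε hx0.2
  have hx0b : x0 ∈ Box m M := by
    refine hstay (fun _ => x0) 0 0 continuousOn_const (fun t ht _ => ⟨continuousOn_const, ?_⟩) rfl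
      0 ⟨le_rfl, le_rfl⟩
    intro s u h1 h2 h3 z γ _
    have : u - s = 0 := by linarith [ht.2]
    simp [this]
  have hcl : ∀ x : Fin d → ℝ, clamp (m / 2) (M + 1) x ∈ Box (m / 2) (M + 1) := fun x j =>
    ⟨le_max_left _ _, max_le (by linarith [(hx0b j).1, (hx0b j).2]) (min_le_right _ _)⟩
  obtain ⟨L, B, hL, hLB⟩ := massAction_lip R hε (m / 2) (M + 1)
  obtain ⟨x, hxc, hxe⟩ := picard_exists
    (g := fun t x => massAction R (fun r => k r t) (clamp (m / 2) (M + 1) x)) (B := B) hL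
    (fun u hu T => integrableOn_massAction hε hm hk
      (u := fun s => clamp (m / 2) (M + 1) (u s))
      ((continuous_clamp (m / 2) (M + 1)).comp hu).continuousOn)
    (fun t ht x y => le_trans ((hLB _ (fun r hr => hk r hr t ht) _ (hcl x)).2 _ (hcl y))
      (mul_le_mul_of_nonneg_left (clamp_lip _ _ x y) hL.le))
    (fun t ht x => (hLB _ (fun r hr => hk r hr t ht) _ (hcl x)).1) x0
  have hx00 : x 0 = x0 := by simpa using hxe 0 le_rfl
  have hsol : ∀ T : ℝ, (∀ s ∈ Set.Icc 0 T, x s ∈ OBox (m / 2) (M + 1)) →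
      SolvesIntegralOn (fun t => massAction R fun r => k r t) x (Icc 0 T) := by
    intro T hT
    refine ⟨hxc.continuousOn, fun t ht => ⟨?_, ?_⟩⟩
    · exact (intervalIntegrable_iff_integrableOn_Icc_of_le ht.1).mpr
        (integrableOn_massAction hε hm hk hxc.continuousOn)
    · rw [hxe t ht.1, hx00]
      congr 1
      apply integral_congr
      intro s hs
      rw [uIcc_of_le ht.1] at hs
      simp only
      rw [clamp_eq (hT s ⟨hs.1, hs.2.trans ht.2⟩)]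
  have hxb : ∀ t, 0 ≤ t → x t ∈ Box m M := fun t ht =>
    hstay x 0 t hxc.continuousOn (fun s _ hO => htraj x s (hsol s hO)) hx00 t ⟨ht, le_rfl⟩
  have hBO : (Box m M : Set (Fin d → ℝ)) ⊆ OBox (m / 2) (M + 1) :=
    fun y hy j => ⟨by linarith [(hy j).1], by linarith [(hy j).2]⟩
  have hBB : (Box m M : Set (Fin d → ℝ)) ⊆ Box (m / 2) (M + 1) :=
    fun y hy j => ⟨by linarith [(hy j).1], by linarith [(hy j).2]⟩
  have hsol' : ∀ T : ℝ, SolvesIntegralOn (fun t => massAction R fun r => k r t) x (Icc 0 T) :=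
    fun T => hsol T fun s hs => hBO (hxb s hs.1)
  refine ⟨x, hx00, ⟨hxc.continuousOn, fun t ht => (hsol' t).2 t ⟨ht, le_rfl⟩⟩,
    fun t ht i => lt_of_lt_of_le hm0 (hxb t ht i).1, ?_⟩
  intro T z hz0 hz t ht
  have hz' := hz.mono (show Icc 0 t ⊆ Ico 0 T from fun s hs => ⟨hs.1, lt_of_le_of_lt hs.2 ht.2⟩)
  have hzb : ∀ s ∈ Icc 0 t, z s ∈ Box m M :=
    hstay z 0 t hz'.1 (fun s hs _ => htraj z s (hz'.mono (Icc_subset_Icc le_rfl hs.2))) hz0
  refine picard_unique (g := fun t x => massAction R (fun r => k r t) x) (x0 := x0) hL.le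
    (S := Box (m / 2) (M + 1))
    (fun s hs a ha b hb => (hLB _ (fun r hr => hk r hr s hs.1) a ha).2 b hb)
    hz'.1 hxc.continuousOn (fun s hs => hBB (hzb s hs)) (fun s hs => hBB (hxb s hs.1))
    (integrableOn_massAction hε hm hk hz'.1) (integrableOn_massAction hε hm hk hxc.continuousOn)
    (fun s hs => by rw [← hz0]; exact (hz'.2 s hs).2)
    (fun s hs => by rw [← hx00]; exact ((hsol' t).2 s hs).2) ⟨ht.1, le_rfl⟩

theorem continuous_massAction (R : Finset ((Fin d → ℕ) × (Fin d → ℕ)))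
    (k : (Fin d → ℕ) × (Fin d → ℕ) → ℝ) : Continuous (massAction R k) := by
  unfold massAction; fun_prop

theorem integral_of_solves {f : (Fin d → ℝ) → Fin d → ℝ} (hf : Continuous f)
    {x : ℝ → Fin d → ℝ} {I : Set ℝ} (hI : ∀ t ∈ I, 0 ≤ t ∧ Icc 0 t ⊆ I) (h : SolvesOn f x I) :
    SolvesIntegralOn (fun _ => f) x I := by
  have hc : ContinuousOn x I := fun t ht => (h t ht).continuousWithinAt
  refine ⟨hc, fun t ht => ?_⟩
  obtain ⟨ht0, hsub⟩ := hI t ht
  have hi : IntervalIntegrable (fun s => f (x s)) volume 0 t :=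
    (hf.comp_continuousOn (hc.mono hsub)).intervalIntegrable_of_Icc ht0
  refine ⟨hi, ?_⟩
  rw [integral_eq_sub_of_hasDeriv_right_of_le ht0 (hc.mono hsub) (fun s hs => ?_) hi]
  · abel
  · have h1 := (h s (hsub (Ioo_subset_Icc_self hs))).mono hsub
    exact (h1.hasDerivAt (Icc_mem_nhds hs.1 hs.2)).hasDerivWithinAt

theorem solves_of_integral {f : (Fin d → ℝ) → Fin d → ℝ} (hf : Continuous f)
    {x : ℝ → Fin d → ℝ} (h : SolvesIntegralOn (fun _ => f) x (Ici 0)) : SolvesOn f x (Ici 0) := by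
  intro t ht
  have hφ : Continuous fun s : ℝ => f (x (max s 0)) :=
    hf.comp (h.1.comp_continuous (by fun_prop) fun s => Set.mem_Ici.mpr (le_max_right s 0))
  have h1 : HasDerivAt (fun u => x 0 + ∫ s in (0 : ℝ)..u, f (x (max s 0))) (f (x (max t 0))) t :=
    (integral_hasDerivAt_right (hφ.intervalIntegrable _ _)
      (hφ.stronglyMeasurableAtFilter _ _) hφ.continuousAt).const_add _
  rw [max_eq_left ht] at h1
  have h2 : ∀ u ∈ Ici (0 : ℝ), x u = x 0 + ∫ s in (0 : ℝ)..u, f (x (max s 0)) := by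
    intro u hu
    rw [(h.2 u hu).2]
    congr 1
    apply integral_congr
    intro s hs
    rw [Set.uIcc_of_le (Set.mem_Ici.mp hu)] at hs
    simp only
    rw [max_eq_left hs.1]
  exact h1.hasDerivWithinAt.congr h2 (h2 t ht)

theorem permanence {R : Finset ((Fin d → ℕ) × (Fin d → ℕ))} (hR : WeaklyReversible R)
    {k : (Fin d → ℕ) × (Fin d → ℕ) → ℝ} (hk : ∀ r ∈ R, 0 < k r) {c : Fin d → ℝ}
    (hc : ∀ i, 0 < c i) : Permanent (massAction R k) (posClass R c) := by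
  obtain ⟨ε, hε, hle⟩ := exists_pos_le (D := R) (fun r => min (k r) (k r)⁻¹)
    (fun r => lt_min (hk r r.2) (inv_pos.mpr (hk r r.2)))
  have hkε : ∀ r ∈ R, k r ∈ Icc ε ε⁻¹ := fun r hr =>
    ⟨(hle ⟨r, hr⟩).trans (min_le_left _ _),
      (le_inv_comm₀ (hk r hr) hε).mpr ((hle ⟨r, hr⟩).trans (min_le_right _ _))⟩
  obtain ⟨K, hK1, hK2, hK3⟩ := strong_permanence hR hε hc
  obtain ⟨h1, h2⟩ := hK3 (fun r _ => k r) (fun _ _ => measurable_const) (fun r hr _ _ => hkε r hr)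
  have hf := continuous_massAction R k
  refine ⟨fun x0 hx0 => ?_, K, hK1, hK2, fun x hx0 hx => h2 x hx0
    (integral_of_solves hf (fun t ht => ⟨ht, Icc_subset_Ici_self⟩) hx)⟩
  obtain ⟨x, h3, h4, h5, h6⟩ := h1 x0 hx0
  refine ⟨x, h3, solves_of_integral hf h4, h5, fun T z hz0 hz => h6 T z hz0
    (integral_of_solves hf (fun t ht => ⟨ht.1, fun s hs => ⟨hs.1, lt_of_le_of_lt hs.2 ht.2⟩⟩) hz)⟩

end Vale.Agent.P072
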