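import Vale.Agent.P072.Defs
import Vale.Agent.P072.Apriori

/-! The dissipation inequality for weakly reversible networks. -/

namespace Vale.Agent.P072

open Finset Real Set

theorem path_bound {C : Type*} (R : Finset (C × C)) {z y : C}
    (h : Relation.ReflTransGen (fun a b => (a, b) ∈ R) z y) :
    ∃ n : ℕ, ∀ a : C → ℝ,
      a z - a y ≤ n * ∑ e ∈ R.filter (fun e => a y < a e.1), max (a e.1 - a e.2) 0 := by
  induction h using Relation.ReflTransGen.head_induction_on with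
  | refl => exact ⟨0, fun a => by simp⟩
  | @head z z1 hz _ ih =>
    obtain ⟨n, hn⟩ := ih
    refine ⟨n + 1, fun a => ?_⟩
    have hS : 0 ≤ ∑ e ∈ R.filter (fun e => a y < a e.1), max (a e.1 - a e.2) 0 :=
      Finset.sum_nonneg fun _ _ => le_max_right _ _
    rcases le_or_gt (a z) (a y) with h1 | h1
    · have : (0 : ℝ) ≤ ((n + 1 : ℕ) : ℝ) * ∑ e ∈ R.filter (fun e => a y < a e.1),
          max (a e.1 - a e.2) 0 := mul_nonneg (Nat.cast_nonneg _) hS
      linarith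
    · have h2 : max (a z - a z1) 0 ≤ ∑ e ∈ R.filter (fun e => a y < a e.1),
          max (a e.1 - a e.2) 0 :=
        Finset.single_le_sum (f := fun e : C × C => max (a e.1 - a e.2) 0)
          (fun _ _ => le_max_right _ _) (Finset.mem_filter.mpr ⟨hz, h1⟩ : (z, z1) ∈ _)
      have h3 := le_max_left (a z - a z1) 0
      have h4 := hn a
      push_cast
      linarith

theorem uniform_path_bound {C : Type*} (R : Finset (C × C))
    (h : ∀ r ∈ R, Relation.ReflTransGen (fun a b => (a, b) ∈ R) r.2 r.1) :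
    ∃ N : ℝ, 1 ≤ N ∧ ∀ r ∈ R, ∀ a : C → ℝ, max (a r.2 - a r.1) 0
      ≤ N * ∑ e ∈ R.filter (fun e => a r.1 < a e.1), max (a e.1 - a e.2) 0 := by
  have h1 := fun r hr => path_bound R (h r hr)
  choose! n hn using h1
  have hsum : (0 : ℝ) ≤ ∑ r ∈ R, (n r : ℝ) := Finset.sum_nonneg fun _ _ => Nat.cast_nonneg _
  refine ⟨1 + ∑ r ∈ R, (n r : ℝ), by linarith, fun r hr a => ?_⟩
  have hS : 0 ≤ ∑ e ∈ R.filter (fun e => a r.1 < a e.1), max (a e.1 - a e.2) 0 :=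
    Finset.sum_nonneg fun _ _ => le_max_right _ _
  have h2 : (n r : ℝ) ≤ ∑ r ∈ R, (n r : ℝ) :=
    Finset.single_le_sum (f := fun r => (n r : ℝ)) (fun _ _ => Nat.cast_nonneg _) hr
  apply max_le
  · exact le_trans (hn r hr a) (mul_le_mul_of_nonneg_right (by linarith) hS)
  · exact mul_nonneg (by linarith) hS

/-- The abstract flux inequality. -/
theorem flux_le {C : Type*} (R : Finset (C × C)) {N ε : ℝ} (hN : 1 ≤ N) (hε : 0 < ε)
    (a μ : C → ℝ) (k : C × C → ℝ)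
    (hpath : ∀ r ∈ R, max (a r.2 - a r.1) 0
      ≤ N * ∑ e ∈ R.filter (fun e => a r.1 < a e.1), max (a e.1 - a e.2) 0)
    (hk : ∀ r ∈ R, k r ∈ Icc ε ε⁻¹) (hμ : ∀ y, 0 ≤ μ y)
    (hcmp : ∀ r ∈ R, ∀ e ∈ R, a r.1 < a e.1 → (2 * R.card * N * (ε⁻¹) ^ 2) * μ r.1 ≤ μ e.1) :
    ∑ r ∈ R, k r * μ r.1 * (a r.2 - a r.1)
      ≤ -(ε / 2) * ∑ e ∈ R, μ e.1 * max (a e.1 - a e.2) 0 := by
  set T : ℝ := ∑ e ∈ R, μ e.1 * max (a e.1 - a e.2) 0 with hT
  have hT0 : 0 ≤ T := Finset.sum_nonneg fun e _ => mul_nonneg (hμ _) (le_max_right _ _)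
  have hεi : 0 < ε⁻¹ := inv_pos.mpr hε
  have hup : ∀ r ∈ R, (R.card : ℝ) * (k r * μ r.1 * max (a r.2 - a r.1) 0) ≤ ε / 2 * T := by
    intro r hr
    have h1 : (2 * R.card * N * (ε⁻¹) ^ 2) * μ r.1 *
        ∑ e ∈ R.filter (fun e => a r.1 < a e.1), max (a e.1 - a e.2) 0 ≤ T := by
      rw [Finset.mul_sum]
      calc ∑ e ∈ R.filter (fun e => a r.1 < a e.1),
            (2 * R.card * N * (ε⁻¹) ^ 2) * μ r.1 * max (a e.1 - a e.2) 0
          ≤ ∑ e ∈ R.filter (fun e => a r.1 < a e.1), μ e.1 * max (a e.1 - a e.2) 0 := by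
            apply Finset.sum_le_sum
            intro e he
            obtain ⟨he1, he2⟩ := Finset.mem_filter.mp he
            exact mul_le_mul_of_nonneg_right (hcmp r hr e he1 he2) (le_max_right _ _)
        _ ≤ T := Finset.sum_le_sum_of_subset_of_nonneg (Finset.filter_subset _ _)
            fun e _ _ => mul_nonneg (hμ _) (le_max_right _ _)
    set S := ∑ e ∈ R.filter (fun e => a r.1 < a e.1), max (a e.1 - a e.2) 0 with hS
    have h2 : k r * μ r.1 * max (a r.2 - a r.1) 0 ≤ ε⁻¹ * μ r.1 * (N * S) :=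
      mul_le_mul (mul_le_mul_of_nonneg_right (hk r hr).2 (hμ _)) (hpath r hr) (le_max_right _ _)
        (mul_nonneg hεi.le (hμ _))
    have h3 : (R.card : ℝ) * (ε⁻¹ * μ r.1 * (N * S))
        = ε / 2 * ((2 * R.card * N * (ε⁻¹) ^ 2) * μ r.1 * S) := by
      field_simp
    calc (R.card : ℝ) * (k r * μ r.1 * max (a r.2 - a r.1) 0)
        ≤ R.card * (ε⁻¹ * μ r.1 * (N * S)) := mul_le_mul_of_nonneg_left h2 (Nat.cast_nonneg _)
      _ = ε / 2 * ((2 * R.card * N * (ε⁻¹) ^ 2) * μ r.1 * S) := h3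
      _ ≤ ε / 2 * T := mul_le_mul_of_nonneg_left h1 (by linarith)
  have hup' : ∑ r ∈ R, k r * μ r.1 * max (a r.2 - a r.1) 0 ≤ ε / 2 * T := by
    rcases R.eq_empty_or_nonempty with h0 | h0
    · rw [h0, Finset.sum_empty]; positivity
    · have hc : (0 : ℝ) < R.card := by exact_mod_cast Finset.card_pos.mpr h0
      have h1 := Finset.sum_le_sum hup
      rw [← Finset.mul_sum, Finset.sum_const, nsmul_eq_mul] at h1
      exact le_of_mul_le_mul_left h1 hc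
  have hdown : ε * T ≤ ∑ r ∈ R, k r * μ r.1 * max (a r.1 - a r.2) 0 := by
    rw [hT, Finset.mul_sum]
    apply Finset.sum_le_sum
    intro r hr
    rw [mul_assoc]
    exact mul_le_mul_of_nonneg_right (hk r hr).1 (mul_nonneg (hμ _) (le_max_right _ _))
  have hsplit : ∑ r ∈ R, k r * μ r.1 * (a r.2 - a r.1)
      = ∑ r ∈ R, k r * μ r.1 * max (a r.2 - a r.1) 0
        - ∑ r ∈ R, k r * μ r.1 * max (a r.1 - a r.2) 0 := by
    rw [← Finset.sum_sub_distrib]
    apply Finset.sum_congr rfl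
    intro r _
    rw [← mul_sub]
    congr 1
    rcases le_total (a r.2 - a r.1) 0 with h | h
    · rw [max_eq_right h, max_eq_left (by linarith)]; ring
    · rw [max_eq_left h, max_eq_right (by linarith)]; ring
  rw [hsplit]
  linarith

variable {d : ℕ}

/-- All values of the mass-action field with rates in `[ε, ε⁻¹]`. -/
def fieldSet (R : Finset ((Fin d → ℕ) × (Fin d → ℕ))) (ε : ℝ) (x : Fin d → ℝ) :
    Set (Fin d → ℝ) :=
  {g | ∃ k : (Fin d → ℕ) × (Fin d → ℕ) → ℝ, (∀ r ∈ R, k r ∈ Icc ε ε⁻¹) ∧ g = massAction R k x}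

/-- Differences of source complexes. -/
noncomputable def diffs (R : Finset ((Fin d → ℕ) × (Fin d → ℕ))) : Finset (Fin d → ℝ) := by
  classical exact (R ×ˢ R).image (fun p => rvec (p.1.1, p.2.1))

theorem mem_diffs {R : Finset ((Fin d → ℕ) × (Fin d → ℕ))} {r e : (Fin d → ℕ) × (Fin d → ℕ)}
    (hr : r ∈ R) (he : e ∈ R) : rvec (r.1, e.1) ∈ diffs R := by
  classical
  unfold diffs
  exact Finset.mem_image.mpr ⟨(r, e), Finset.mem_product.mpr ⟨hr, he⟩, rfl⟩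

theorem dot_rvec (z : Fin d → ℝ) (r : (Fin d → ℕ) × (Fin d → ℕ)) :
    z ⬝ᵥ rvec r = ∑ i, z i * (r.2 i : ℝ) - ∑ i, z i * (r.1 i : ℝ) := by
  simp only [dotProduct, rvec, mul_sub, Finset.sum_sub_distrib]

theorem dot_massAction (R : Finset ((Fin d → ℕ) × (Fin d → ℕ)))
    (k : (Fin d → ℕ) × (Fin d → ℕ) → ℝ) (x z : Fin d → ℝ) :
    z ⬝ᵥ massAction R k x = ∑ r ∈ R, k r * (∏ i, x i ^ r.1 i) * (z ⬝ᵥ rvec r) := by
  rw [massAction, dotProduct_sum]
  exact Finset.sum_congr rfl fun r _ => by rw [dotProduct_smul, smul_eq_mul]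

theorem mono_eq_exp {x : Fin d → ℝ} (hx : ∀ i, 0 < x i) (y : Fin d → ℕ) :
    ∏ i, x i ^ y i = exp (∑ i, log (x i) * (y i : ℝ)) := by
  rw [exp_sum]
  apply Finset.prod_congr rfl
  intro i _
  rw [mul_comm, ← log_pow, exp_log (pow_pos (hx i) _)]

theorem network_ineq {R : Finset ((Fin d → ℕ) × (Fin d → ℕ))} (hR : WeaklyReversible R)
    {ε : ℝ} (hε : 0 < ε) : ∃ δ N : ℝ, 1 ≤ N ∧ ∀ x : Fin d → ℝ, (∀ i, 0 < x i) → ∀ z : Fin d → ℝ,
      (∀ v ∈ diffs R, 0 < z ⬝ᵥ v → δ ≤ ∑ j, log (x j) * v j) → ∀ g ∈ fieldSet R ε x,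
      z ⬝ᵥ g ≤ 0 ∧ ∀ μ : ℝ, 0 ≤ μ → (∀ r ∈ R, μ ≤ ∏ i, x i ^ r.1 i) →
        (∃ r ∈ R, N ≤ |z ⬝ᵥ rvec r|) → z ⬝ᵥ g ≤ -(ε / 2 * μ) := by
  obtain ⟨N, hN, hpath⟩ := uniform_path_bound R hR
  refine ⟨2 * R.card * N * (ε⁻¹) ^ 2, N, hN, ?_⟩
  rintro x hx z hz g ⟨k, hk, rfl⟩
  set a : (Fin d → ℕ) → ℝ := fun y => ∑ i, z i * (y i : ℝ) with ha
  have hflux := flux_le R hN hε a (fun y => ∏ i, x i ^ y i) k (fun r hr => hpath r hr a) hk
    (fun y => Finset.prod_nonneg fun i _ => pow_nonneg (hx i).le _) (fun r hr e he hlt => by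
      have h1 := hz _ (mem_diffs hr he) (by rw [dot_rvec]; simp only [ha] at hlt; linarith)
      have h2 : ∑ j, log (x j) * rvec (r.1, e.1) j
          = ∑ i, log (x i) * (e.1 i : ℝ) - ∑ i, log (x i) * (r.1 i : ℝ) :=
        dot_rvec (fun j => log (x j)) (r.1, e.1)
      rw [mono_eq_exp hx, mono_eq_exp hx]
      rw [h2] at h1
      set δ := 2 * R.card * N * (ε⁻¹) ^ 2
      have h3 : δ + 1 ≤ exp δ := add_one_le_exp _
      have h4 : exp δ * exp (∑ i, log (x i) * (r.1 i : ℝ))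
          ≤ exp (∑ i, log (x i) * (e.1 i : ℝ)) := by
        rw [← exp_add]; exact exp_le_exp.mpr (by linarith)
      have h5 := exp_pos (∑ i, log (x i) * (r.1 i : ℝ))
      nlinarith)
  have heq : z ⬝ᵥ massAction R k x = ∑ r ∈ R, k r * (∏ i, x i ^ r.1 i) * (a r.2 - a r.1) := by
    rw [dot_massAction]
    exact Finset.sum_congr rfl fun r _ => by rw [dot_rvec]
  rw [heq]
  have hT0 : 0 ≤ ∑ e ∈ R, (∏ i, x i ^ e.1 i) * max (a e.1 - a e.2) 0 :=
    Finset.sum_nonneg fun e _ => mul_nonneg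
      (Finset.prod_nonneg fun i _ => pow_nonneg (hx i).le _) (le_max_right _ _)
  refine ⟨le_trans hflux (by nlinarith), ?_⟩
  rintro μ hμ hμle ⟨r, hr, hbig⟩
  have hS : 1 ≤ ∑ e ∈ R, max (a e.1 - a e.2) 0 := by
    rw [dot_rvec] at hbig
    rcases le_abs'.mp hbig with h1 | h1
    · have h2 : max (a r.1 - a r.2) 0 ≤ ∑ e ∈ R, max (a e.1 - a e.2) 0 :=
        Finset.single_le_sum (f := fun e : (Fin d → ℕ) × (Fin d → ℕ) => max (a e.1 - a e.2) 0)
          (fun _ _ => le_max_right _ _) hr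
      have h3 := le_max_left (a r.1 - a r.2) 0
      simp only [ha] at h2 h3 ⊢
      linarith
    · have h2 := hpath r hr a
      have h3 := le_max_left (a r.2 - a r.1) 0
      have h4 : ∑ e ∈ R.filter (fun e => a r.1 < a e.1), max (a e.1 - a e.2) 0
          ≤ ∑ e ∈ R, max (a e.1 - a e.2) 0 :=
        Finset.sum_le_sum_of_subset_of_nonneg (Finset.filter_subset _ _)
          fun _ _ _ => le_max_right _ _
      have h5 : N ≤ a r.2 - a r.1 := h1
      have h6 : N * 1 ≤ N * ∑ e ∈ R, max (a e.1 - a e.2) 0 := by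
        have := mul_le_mul_of_nonneg_left h4 (by linarith : (0 : ℝ) ≤ N)
        linarith
      exact le_of_mul_le_mul_left h6 (by linarith)
  have h7 : μ * ∑ e ∈ R, max (a e.1 - a e.2) 0
      ≤ ∑ e ∈ R, (∏ i, x i ^ e.1 i) * max (a e.1 - a e.2) 0 := by
    rw [Finset.mul_sum]
    exact Finset.sum_le_sum fun e he => mul_le_mul_of_nonneg_right (hμle e he) (le_max_right _ _)
  have h8 : μ ≤ μ * ∑ e ∈ R, max (a e.1 - a e.2) 0 := by nlinarith
  nlinarith

end Vale.Agent.P072
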