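import Mathlib

/-! One-dimensional rounding step for the permanence proof. -/

namespace Vale.Agent.P072

open Finset

variable {D : Type*} [Fintype D]

/-- Every `u ∈ V` is either orthogonal to `w` or far from orthogonal at scale `ω`. -/
def Good (V : Finset (D → ℝ)) (Γ : ℝ) (w : D → ℝ) (ω : ℝ) : Prop :=
  ∀ u ∈ V, w ⬝ᵥ u = 0 ∨ Γ * ω ≤ |w ⬝ᵥ u|

theorem Good.mono {V V' : Finset (D → ℝ)} {Γ Γ' : ℝ} {w : D → ℝ} {ω : ℝ}
    (h : Good V' Γ' w ω) (hV : V ⊆ V') (hΓ : Γ ≤ Γ') (hω : 0 ≤ ω) : Good V Γ w ω := by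
  intro u hu
  rcases h u (hV hu) with h0 | h1
  · exact Or.inl h0
  · exact Or.inr (le_trans (mul_le_mul_of_nonneg_right hΓ hω) h1)

omit [Fintype D] in
theorem exists_bound (F : Finset ((D → ℝ) × ℝ)) (Γ : ℝ) (hΓ : 1 ≤ Γ) :
    ∃ G : ℝ, Γ ≤ G ∧ ∀ q ∈ F, q.2 ≠ 0 → Γ ≤ G * |q.2| := by
  refine ⟨Γ + ∑ q ∈ F, Γ / |q.2|, ?_, ?_⟩
  · have : 0 ≤ ∑ q ∈ F, Γ / |q.2| :=
      Finset.sum_nonneg fun q _ => div_nonneg (by linarith) (abs_nonneg _)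
    linarith
  · intro q hq hq0
    have hpos : 0 < |q.2| := abs_pos.mpr hq0
    have h1 : Γ / |q.2| ≤ ∑ q ∈ F, Γ / |q.2| :=
      Finset.single_le_sum (f := fun q : (D → ℝ) × ℝ => Γ / |q.2|)
        (fun q _ => div_nonneg (by linarith) (abs_nonneg _)) hq
    have h2 : Γ / |q.2| * |q.2| = Γ := div_mul_cancel₀ _ hpos.ne'
    nlinarith

theorem rounding (F : Finset ((D → ℝ) × ℝ)) (Γ : ℝ) (hΓ : 1 ≤ Γ) :
    ∃ (V' : Finset (D → ℝ)) (G : ℝ), 1 ≤ G ∧ ∀ (w : D → ℝ) (ω : ℝ), 1 ≤ ω →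
      Good V' (G ^ 2) w ω → ∃ 𝒜 : Set (ℝ × ℝ),
        (∀ p ∈ 𝒜, ω ≤ p.2 ∧ p.2 ≤ G * ω ∧ ∀ q ∈ F,
          w ⬝ᵥ q.1 + p.1 * q.2 = 0 ∨ Γ * p.2 ≤ |w ⬝ᵥ q.1 + p.1 * q.2|) ∧
        (∀ τ : ℝ, ∃ p ∈ 𝒜, |τ - p.1| ≤ p.2) ∧
        (∀ p ∈ 𝒜, ∃ p' ∈ 𝒜, p.1 + 1 ≤ p'.1 ∧ |p.1 + p.2 + 1 - p'.1| ≤ p'.2) := by
  classical
  obtain ⟨G, hG, hGF⟩ := exists_bound F Γ hΓ
  have hG1 : 1 ≤ G := le_trans hΓ hG
  refine ⟨F.image Prod.fst ∪ (F ×ˢ F).image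
    (fun qq => (qq.1.2)⁻¹ • qq.1.1 - (qq.2.2)⁻¹ • qq.2.1), G, hG1, ?_⟩
  intro w ω hω1 hgood
  have hω : 0 < ω := by linarith
  -- special values
  let B : Set ℝ := {b | ∃ q ∈ F, q.2 ≠ 0 ∧ b = -(w ⬝ᵥ q.1) / q.2}
  have hfac : ∀ q ∈ F, q.2 ≠ 0 → ∀ β : ℝ,
      w ⬝ᵥ q.1 + β * q.2 = q.2 * (β - -(w ⬝ᵥ q.1) / q.2) := by
    intro q _ hq0 β
    field_simp
    ring
  have hsep : ∀ b ∈ B, ∀ b' ∈ B, b = b' ∨ G ^ 2 * ω ≤ |b - b'| := by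
    rintro b ⟨q, hq, hq0, rfl⟩ b' ⟨q', hq', hq0', rfl⟩
    have hmem : (q'.2)⁻¹ • q'.1 - (q.2)⁻¹ • q.1 ∈ F.image Prod.fst ∪ (F ×ˢ F).image
        (fun qq => (qq.1.2)⁻¹ • qq.1.1 - (qq.2.2)⁻¹ • qq.2.1) := by
      apply Finset.mem_union_right
      exact Finset.mem_image.mpr ⟨(q', q), Finset.mem_product.mpr ⟨hq', hq⟩, rfl⟩
    have heq : w ⬝ᵥ ((q'.2)⁻¹ • q'.1 - (q.2)⁻¹ • q.1)
        = -(w ⬝ᵥ q.1) / q.2 - -(w ⬝ᵥ q'.1) / q'.2 := by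
      rw [dotProduct_sub, dotProduct_smul, dotProduct_smul, smul_eq_mul, smul_eq_mul]
      field_simp
      ring
    rcases hgood _ hmem with h0 | h1
    · left
      rw [heq] at h0
      linarith
    · right
      rwa [heq] at h1
  have hzero : ∀ q ∈ F, w ⬝ᵥ q.1 = 0 ∨ G ^ 2 * ω ≤ |w ⬝ᵥ q.1| := by
    intro q hq
    exact hgood _ (Finset.mem_union_left _ (Finset.mem_image_of_mem _ hq))
  have hGω : ω ≤ G * ω := by nlinarith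
  let 𝒜 : Set (ℝ × ℝ) := {p | (p.1 ∈ B ∧ p.2 = G * ω) ∨
    ((∀ b ∈ B, G * ω ≤ |p.1 - b|) ∧ p.2 = ω)}
  have hcover : ∀ τ : ℝ, (∃ b ∈ B, |τ - b| < G * ω) ∨ (τ, ω) ∈ 𝒜 := by
    intro τ
    by_cases h : ∃ b ∈ B, |τ - b| < G * ω
    · exact Or.inl h
    · push Not at h
      exact Or.inr (Or.inr ⟨h, rfl⟩)
  refine ⟨𝒜, ?_, ?_, ?_⟩
  · rintro ⟨β, ω'⟩ hp
    have hb : ω ≤ ω' ∧ ω' ≤ G * ω := by
      rcases hp with ⟨_, h⟩ | ⟨_, h⟩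
      · simp only at h; rw [h]; exact ⟨hGω, le_rfl⟩
      · simp only at h; rw [h]; exact ⟨le_rfl, hGω⟩
    refine ⟨hb.1, hb.2, ?_⟩
    intro q hq
    by_cases hq0 : q.2 = 0
    · simp only [hq0, mul_zero, add_zero]
      rcases hzero q hq with h0 | h1
      · exact Or.inl h0
      · right
        have : Γ * ω' ≤ G ^ 2 * ω := by
          calc Γ * ω' ≤ G * (G * ω) :=
                mul_le_mul hG hb.2 (by linarith [hb.1]) (by linarith)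
            _ = G ^ 2 * ω := by ring
        linarith
    · have hqB : -(w ⬝ᵥ q.1) / q.2 ∈ B := ⟨q, hq, hq0, rfl⟩
      have hG2 := hGF q hq hq0
      simp only
      rw [hfac q hq hq0 β]
      rcases hp with ⟨hβ, h⟩ | ⟨hβ, h⟩
      · simp only at hβ h
        rcases hsep β hβ _ hqB with h0 | h1
        · left; rw [← h0]; simp
        · right
          rw [abs_mul, h]
          calc Γ * (G * ω) ≤ (G * |q.2|) * (G * ω) :=
                mul_le_mul_of_nonneg_right hG2 (by positivity)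
            _ = |q.2| * (G ^ 2 * ω) := by ring
            _ ≤ |q.2| * |β - -(w ⬝ᵥ q.1) / q.2| :=
                mul_le_mul_of_nonneg_left h1 (abs_nonneg _)
      · simp only at hβ h
        right
        rw [abs_mul, h]
        calc Γ * ω ≤ (G * |q.2|) * ω := mul_le_mul_of_nonneg_right hG2 hω.le
          _ = |q.2| * (G * ω) := by ring
          _ ≤ |q.2| * |β - -(w ⬝ᵥ q.1) / q.2| :=
              mul_le_mul_of_nonneg_left (hβ _ hqB) (abs_nonneg _)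
  · intro τ
    rcases hcover τ with ⟨b, hb, h⟩ | h
    · exact ⟨(b, G * ω), Or.inl ⟨hb, rfl⟩, h.le⟩
    · exact ⟨(τ, ω), h, by simp [hω.le]⟩
  · rintro ⟨β, ω'⟩ hp
    simp only
    have hω' : ω ≤ ω' := by
      rcases hp with ⟨_, h⟩ | ⟨_, h⟩
      · simp only at h; rw [h]; exact hGω
      · simp only at h; rw [h]
    rcases hcover (β + ω' + 1) with ⟨b, hb, h⟩ | h
    · refine ⟨(b, G * ω), Or.inl ⟨hb, rfl⟩, ?_, h.le⟩
      have h1 := (abs_lt.mp h).2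
      rcases hp with ⟨_, h2⟩ | ⟨h3, h2⟩
      · simp only at h2
        simp only
        linarith
      · simp only at h2 h3
        simp only
        have h4 := h3 b hb
        rcases le_abs'.mp h4 with h5 | h5
        · linarith
        · linarith
    · exact ⟨(β + ω' + 1, ω), h, by simp only; linarith, by simp [hω.le]⟩

end Vale.Agent.P072
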